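import Mathlib

/-! # P072-T1: a coarea inequality on weakly reversible weighted graphs -/

namespace Vale.Agent.P072

open Finset

/-- along a path from above level `s` to below level `s` some edge crosses the level -/
theorem exists_cross {V : Type} (E : Finset (V × V)) (η : V → ℝ) (s : ℝ) (a b : V)
    (h : Relation.ReflTransGen (fun a b => (a, b) ∈ E) a b) (ha : s < η a) (hb : η b ≤ s) :
    ∃ e' ∈ E, η e'.2 ≤ s ∧ s < η e'.1 := by
  induction h with
  | refl => exact absurd hb (not_le.mpr ha)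
  | @tail b c _ hbc ih =>
    by_cases hb' : η b ≤ s
    · exact ih hb'
    · exact ⟨(b, c), hbc, hb, not_le.mp hb'⟩

/-- if some edge is not level, some edge drops -/
theorem exists_drop {V : Type} [DecidableEq V] (E : Finset (V × V))
    (hE : ∀ e ∈ E, Relation.ReflTransGen (fun a b => (a, b) ∈ E) e.2 e.1)
    (η : V → ℝ) (e : V × V) (he : e ∈ E) (hne : η e.1 ≠ η e.2) :
    ∃ e' ∈ E, η e'.2 < η e'.1 := by
  rcases lt_or_gt_of_ne hne with h | h
  · obtain ⟨e', he', h1, h2⟩ := exists_cross E η (η e.1) e.2 e.1 (hE e he) h le_rfl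
    exact ⟨e', he', lt_of_le_of_lt h1 h2⟩
  · exact ⟨e, he, h⟩

/-- the length of a rising edge is covered by the falling edges that start higher -/
theorem rise_le {V : Type} [DecidableEq V] (E : Finset (V × V))
    (hE : ∀ e ∈ E, Relation.ReflTransGen (fun a b => (a, b) ∈ E) e.2 e.1)
    (η : V → ℝ) (e : V × V) (he : e ∈ E) (hr : η e.1 < η e.2) :
    η e.2 - η e.1 ≤ ∑ e' ∈ E.filter (fun e' => η e.1 < η e'.1), max (η e'.1 - η e'.2) 0 := by
  have hcov : Set.Ico (η e.1) (η e.2) ⊆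
      ⋃ e' ∈ E.filter (fun e' => η e.1 < η e'.1), Set.Ico (η e'.2) (η e'.1) := by
    intro s hs
    obtain ⟨e', he', h1, h2⟩ := exists_cross E η s e.2 e.1 (hE e he) hs.2 hs.1
    simp only [Set.mem_iUnion]
    exact ⟨e', Finset.mem_filter.mpr ⟨he', lt_of_le_of_lt hs.1 h2⟩, h1, h2⟩
  have h1 : MeasureTheory.volume (Set.Ico (η e.1) (η e.2)) ≤
      ∑ e' ∈ E.filter (fun e' => η e.1 < η e'.1),
        MeasureTheory.volume (Set.Ico (η e'.2) (η e'.1)) :=
    (MeasureTheory.measure_mono hcov).trans (MeasureTheory.measure_biUnion_finset_le _ _)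
  simp only [Real.volume_Ico] at h1
  have h2 : ∑ e' ∈ E.filter (fun e' => η e.1 < η e'.1), ENNReal.ofReal (η e'.1 - η e'.2) =
      ENNReal.ofReal (∑ e' ∈ E.filter (fun e' => η e.1 < η e'.1), max (η e'.1 - η e'.2) 0) := by
    rw [ENNReal.ofReal_sum_of_nonneg (fun i _ => le_max_right _ _)]
    refine Finset.sum_congr rfl fun e' _ => ?_
    rcases le_total (η e'.1 - η e'.2) 0 with h | h
    · rw [max_eq_right h, ENNReal.ofReal_of_nonpos h, ENNReal.ofReal_zero]
    · rw [max_eq_left h]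
  rw [h2] at h1
  exact (ENNReal.ofReal_le_ofReal_iff (Finset.sum_nonneg fun i _ => le_max_right _ _)).mp h1

theorem coarea {V : Type} [DecidableEq V] (E : Finset (V × V))
    (hE : ∀ e ∈ E, Relation.ReflTransGen (fun a b => (a, b) ∈ E) e.2 e.1)
    (η g : V → ℝ) (W : V × V → ℝ) (ε τ : ℝ) (hε : 0 < ε)
    (hW : ∀ e ∈ E, ε * Real.exp (g e.1) ≤ W e ∧ W e ≤ ε⁻¹ * Real.exp (g e.1))
    (hsc : ∀ e ∈ E, ∀ e' ∈ E, η e.1 < η e'.1 → g e.1 + τ ≤ g e'.1)
    (hτ : (E.card : ℝ) * ε⁻¹ ^ 2 * Real.exp (-τ) ≤ 1 / 2) :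
    ∑ e ∈ E, W e * (η e.2 - η e.1) ≤ -(1 / 2) * ∑ e ∈ E, W e * max (η e.1 - η e.2) 0 := by
  have hεi : 0 < ε⁻¹ := inv_pos.mpr hε
  have hWpos : ∀ e ∈ E, 0 < W e := fun e he =>
    lt_of_lt_of_le (mul_pos hε (Real.exp_pos _)) (hW e he).1
  set D : ℝ := ∑ e ∈ E, W e * max (η e.1 - η e.2) 0 with hD
  have hD0 : 0 ≤ D := Finset.sum_nonneg fun e he =>
    mul_nonneg (hWpos e he).le (le_max_right _ _)
  have hcomp : ∀ e ∈ E, ∀ e' ∈ E, η e.1 < η e'.1 →
      W e ≤ ε⁻¹ ^ 2 * Real.exp (-τ) * W e' := by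
    intro e he e' he' h
    have h1 := (hW e he).2
    have h2 := hsc e he e' he' h
    have h3 := (hW e' he').1
    have h4 : Real.exp (g e.1) ≤ Real.exp (-τ) * Real.exp (g e'.1) := by
      rw [← Real.exp_add]
      exact Real.exp_le_exp.mpr (by linarith)
    have h5 : Real.exp (g e'.1) ≤ ε⁻¹ * W e' := by
      rw [← div_eq_inv_mul, le_div_iff₀ hε]
      linarith
    calc W e ≤ ε⁻¹ * Real.exp (g e.1) := h1
      _ ≤ ε⁻¹ * (Real.exp (-τ) * Real.exp (g e'.1)) :=
          mul_le_mul_of_nonneg_left h4 hεi.le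
      _ ≤ ε⁻¹ * (Real.exp (-τ) * (ε⁻¹ * W e')) :=
          mul_le_mul_of_nonneg_left (mul_le_mul_of_nonneg_left h5 (Real.exp_pos _).le) hεi.le
      _ = ε⁻¹ ^ 2 * Real.exp (-τ) * W e' := by ring
  have hrise : ∀ e ∈ E, W e * max (η e.2 - η e.1) 0 ≤ ε⁻¹ ^ 2 * Real.exp (-τ) * D := by
    intro e he
    rcases le_or_gt (η e.2) (η e.1) with h | h
    · rw [max_eq_right (by linarith), mul_zero]
      exact mul_nonneg (mul_nonneg (sq_nonneg _) (Real.exp_pos _).le) hD0
    · rw [max_eq_left (by linarith)]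
      calc W e * (η e.2 - η e.1)
          ≤ W e * ∑ e' ∈ E.filter (fun e' => η e.1 < η e'.1), max (η e'.1 - η e'.2) 0 :=
            mul_le_mul_of_nonneg_left (rise_le E hE η e he h) (hWpos e he).le
        _ = ∑ e' ∈ E.filter (fun e' => η e.1 < η e'.1), W e * max (η e'.1 - η e'.2) 0 := by
            rw [Finset.mul_sum]
        _ ≤ ∑ e' ∈ E.filter (fun e' => η e.1 < η e'.1),
              ε⁻¹ ^ 2 * Real.exp (-τ) * (W e' * max (η e'.1 - η e'.2) 0) := by
            refine Finset.sum_le_sum fun e' he' => ?_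
            rw [Finset.mem_filter] at he'
            rw [← mul_assoc]
            exact mul_le_mul_of_nonneg_right (hcomp e he e' he'.1 he'.2) (le_max_right _ _)
        _ ≤ ∑ e' ∈ E, ε⁻¹ ^ 2 * Real.exp (-τ) * (W e' * max (η e'.1 - η e'.2) 0) := by
            refine Finset.sum_le_sum_of_subset_of_nonneg (Finset.filter_subset _ _) ?_
            intro e' he' _
            exact mul_nonneg (mul_nonneg (sq_nonneg _) (Real.exp_pos _).le)
              (mul_nonneg (hWpos e' he').le (le_max_right _ _))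
        _ = ε⁻¹ ^ 2 * Real.exp (-τ) * D := by rw [← Finset.mul_sum]
  have hsum : ∑ e ∈ E, W e * (η e.2 - η e.1) =
      ∑ e ∈ E, W e * max (η e.2 - η e.1) 0 - D := by
    rw [hD, ← Finset.sum_sub_distrib]
    refine Finset.sum_congr rfl fun e _ => ?_
    rcases le_total (η e.2) (η e.1) with h | h
    · rw [max_eq_right (by linarith), max_eq_left (by linarith)]; ring
    · rw [max_eq_left (by linarith), max_eq_right (by linarith)]; ring
  have htot : ∑ e ∈ E, W e * max (η e.2 - η e.1) 0 ≤ 1 / 2 * D := by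
    calc ∑ e ∈ E, W e * max (η e.2 - η e.1) 0
        ≤ ∑ _e ∈ E, ε⁻¹ ^ 2 * Real.exp (-τ) * D := Finset.sum_le_sum hrise
      _ = (E.card : ℝ) * ε⁻¹ ^ 2 * Real.exp (-τ) * D := by
          rw [Finset.sum_const, nsmul_eq_mul]; ring
      _ ≤ 1 / 2 * D := mul_le_mul_of_nonneg_right hτ hD0
  rw [hsum]
  linarith

end Vale.Agent.P072
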