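import Vale.Agent.P072.Pot

/-! # P072-T2: the potential decreases along curves -/

namespace Vale.Agent.P072

open Finset

theorem dini {ι : Type} [Fintype ι] (Φ : (ι → ℝ) → ℝ) (A : ℕ) (τ E m T δ : ℝ) (hE : 0 ≤ E)
    (hΦ : IsPot Φ A τ E m T) (u u' : ℝ → ι → ℝ) (a b : ℝ) (hab : a ≤ b)
    (hu : ∀ t ∈ Set.Icc a b, HasDerivWithinAt u (u' t) (Set.Icc a b) t)
    (hpos : ∀ t ∈ Set.Icc a b, ∀ i, 0 < u t i)
    (hv : ∀ t ∈ Set.Icc a b, ∀ v, Good Φ A τ E m (u t) v → ∑ i, v i * u' t i ≤ -δ) :
    Φ (u b) ≤ Φ (u a) - δ * (b - a) := by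
  have hgood : ∀ t ∈ Set.Icc a b, ∃ v, Good Φ A τ E m (u t) v := fun t ht =>
    hΦ.good (u t) (hpos t ht)
  choose! V hV using hgood
  have hsub : ∀ t ∈ Set.Icc a b, ∀ s ∈ Set.Icc a b,
      Φ (u t) - Φ (u s) ≤ ∑ i, (u t i - u s i) * V t i := by
    intro t ht s hs
    have h1 := (hV t ht).1 (u s) (hpos s hs)
    have h2 : ∑ i, (u s i - u t i) * V t i = -∑ i, (u t i - u s i) * V t i := by
      rw [← Finset.sum_neg_distrib]
      exact Finset.sum_congr rfl fun i _ => by ring
    rw [h2] at h1
    linarith
  have hucont : ContinuousOn u (Set.Icc a b) := fun t ht => (hu t ht).continuousWithinAt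
  have hucomp : ∀ i, ContinuousOn (fun t => u t i) (Set.Icc a b) := fun i =>
    (continuous_apply i).comp_continuousOn hucont
  have hlog : ContinuousOn (fun t => fun i => Real.log (u t i)) (Set.Icc a b) := by
    rw [continuousOn_pi]
    intro i
    exact (hucomp i).log fun t ht => (hpos t ht i).ne'
  obtain ⟨C, hC⟩ := isCompact_Icc.exists_bound_of_continuousOn hlog
  have hVb : ∀ t ∈ Set.Icc a b, ∀ i, |V t i| ≤ E + C := by
    intro t ht i
    have h1 := (hV t ht).2.1 i
    have h2 : |Real.log (u t i)| ≤ C := by
      have := norm_le_pi_norm (fun i => Real.log (u t i)) i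
      rw [Real.norm_eq_abs] at this
      exact this.trans (hC t ht)
    have h3 : V t i = (V t i - Real.log (u t i)) + Real.log (u t i) := by ring
    rw [h3]
    exact (abs_add_le _ _).trans (add_le_add h1 h2)
  have hle : ∀ t ∈ Set.Icc a b, ∀ s ∈ Set.Icc a b,
      Φ (u t) - Φ (u s) ≤ (E + C) * ∑ i, |u t i - u s i| := by
    intro t ht s hs
    refine (hsub t ht s hs).trans ?_
    rw [Finset.mul_sum]
    refine Finset.sum_le_sum fun i _ => ?_
    refine (le_abs_self _).trans ?_
    rw [abs_mul, mul_comm]
    exact mul_le_mul_of_nonneg_right (hVb t ht i) (abs_nonneg _)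
  have hfcont : ContinuousOn (fun t => Φ (u t)) (Set.Icc a b) := by
    intro t ht
    unfold ContinuousWithinAt
    rw [tendsto_iff_dist_tendsto_zero]
    have h0 : Filter.Tendsto (fun s => (E + C) * ∑ i, |u s i - u t i|)
        (nhdsWithin t (Set.Icc a b)) (nhds 0) := by
      have h1 : Filter.Tendsto (fun s => (E + C) * ∑ i, |u s i - u t i|)
          (nhdsWithin t (Set.Icc a b)) (nhds ((E + C) * ∑ i, |u t i - u t i|)) := by
        apply Filter.Tendsto.const_mul
        apply tendsto_finsetSum
        intro i _
        exact (((hucomp i) t ht).sub tendsto_const_nhds).abs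
      simpa using h1
    refine squeeze_zero' (Filter.Eventually.of_forall fun _ => dist_nonneg) ?_ h0
    filter_upwards [self_mem_nhdsWithin] with s hs
    rw [Real.dist_eq, abs_le]
    constructor
    · have := hle t ht s hs
      have h2 : ∑ i, |u t i - u s i| = ∑ i, |u s i - u t i| :=
        Finset.sum_congr rfl fun i _ => abs_sub_comm _ _
      rw [h2] at this
      linarith
    · exact hle s hs t ht
  -- time reversal
  have hmap : ∀ s ∈ Set.Icc a b, a + b - s ∈ Set.Icc a b := by
    intro s hs
    constructor <;> linarith [hs.1, hs.2]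
  set F : ℝ → ℝ := fun s => -Φ (u (a + b - s)) with hF
  have hFcont : ContinuousOn F (Set.Icc a b) := by
    apply ContinuousOn.neg
    exact hfcont.comp (by fun_prop) hmap
  have key := image_le_of_liminf_slope_right_le_deriv_boundary hFcont
    (B := fun s => F a - δ * (s - a)) (B' := fun _ => -δ) (by simp) (by fun_prop)
    (by
      intro s _
      have h1 : HasDerivAt (fun s : ℝ => F a - δ * (s - a)) (-δ) s := by
        have h2 := (((hasDerivAt_id s).sub_const a).const_mul δ).const_sub (F a)
        simpa using h2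
      exact h1.hasDerivWithinAt)
    (by
      intro s hs r hr
      have hs' : s ∈ Set.Icc a b := ⟨hs.1, hs.2.le⟩
      set t := a + b - s with ht_def
      have ht : t ∈ Set.Icc a b := hmap s hs'
      have hder := hu t ht
      rw [hasDerivWithinAt_pi] at hder
      have hmapto : Filter.Tendsto (fun z => a + b - z) (nhdsWithin s (Set.Ioi s))
          (nhdsWithin t (Set.Icc a b \ {t})) := by
        rw [tendsto_nhdsWithin_iff]
        constructor
        · have : Filter.Tendsto (fun z : ℝ => a + b - z) (nhds s) (nhds (a + b - s)) :=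
            (Continuous.tendsto (by fun_prop) s)
          exact this.mono_left nhdsWithin_le_nhds
        · filter_upwards [Ioo_mem_nhdsGT hs.2] with z hz
          refine ⟨hmap z ⟨hs.1.trans hz.1.le, hz.2.le⟩, ?_⟩
          simp only [Set.mem_singleton_iff, ht_def]
          intro h
          linarith [hz.1]
      have hG : Filter.Tendsto
          (fun z => ∑ i, V t i * slope (fun y => u y i) t (a + b - z))
          (nhdsWithin s (Set.Ioi s)) (nhds (∑ i, V t i * u' t i)) := by
        apply tendsto_finsetSum
        intro i _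
        apply Filter.Tendsto.const_mul
        exact ((hasDerivWithinAt_iff_tendsto_slope.mp (hder i))).comp hmapto
      have hlim : ∑ i, V t i * u' t i < r := lt_of_le_of_lt (hv t ht (V t) (hV t ht)) hr
      have hev := hG.eventually_lt_const hlim
      apply Filter.Eventually.frequently
      filter_upwards [hev, Ioo_mem_nhdsGT hs.2] with z hz hz2
      refine lt_of_le_of_lt ?_ hz
      have hz' : a + b - z ∈ Set.Icc a b := hmap z ⟨hs.1.trans hz2.1.le, hz2.2.le⟩
      have h1 := hsub t ht (a + b - z) hz'
      have hzs : 0 < z - s := sub_pos.mpr hz2.1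
      have h3 : slope F s z = (Φ (u t) - Φ (u (a + b - z))) / (z - s) := by
        rw [slope_def_field]
        simp only [hF]
        rw [← ht_def]
        ring
      rw [h3, div_le_iff₀ hzs, Finset.sum_mul]
      refine h1.trans (le_of_eq ?_)
      refine Finset.sum_congr rfl fun i _ => ?_
      rw [slope_def_field]
      have h4 : a + b - z - t = -(z - s) := by rw [ht_def]; ring
      rw [h4]
      field_simp
      ring)
  have hb := key (Set.right_mem_Icc.mpr hab)
  simp only [hF] at hb
  have e1 : a + b - b = a := by ring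
  have e2 : a + b - a = b := by ring
  rw [e1, e2] at hb
  linarith

end Vale.Agent.P072
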