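import Mathlib

/-! # P072: the interface of the potential -/

namespace Vale.Agent.P072

open Finset

variable {ι : Type} [Fintype ι]

/-- `v` is a good subgradient of `Φ` at `x` -/
def Good (Φ : (ι → ℝ) → ℝ) (A : ℕ) (τ E m : ℝ) (x v : ι → ℝ) : Prop :=
  (∀ x' : ι → ℝ, (∀ i, 0 < x' i) → Φ x + ∑ i, (x' i - x i) * v i ≤ Φ x') ∧
  (∀ i, |v i - Real.log (x i)| ≤ E) ∧
  (∀ a : ι → ℤ, ∑ i, |a i| ≤ (A : ℤ) →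
    (∑ i, (a i : ℝ) * v i = 0 ∨ m ≤ |∑ i, (a i : ℝ) * v i|) ∧
    (0 < ∑ i, (a i : ℝ) * v i → τ ≤ ∑ i, (a i : ℝ) * Real.log (x i)))

/-- `Φ` is a potential -/
structure IsPot (Φ : (ι → ℝ) → ℝ) (A : ℕ) (τ E m T : ℝ) : Prop where
  good : ∀ x : ι → ℝ, (∀ i, 0 < x i) → ∃ v, Good Φ A τ E m x v
  lower : ∀ x : ι → ℝ, (∀ i, 0 < x i) → ∑ i, x i * (Real.log (x i) - T - 1) ≤ Φ x
  upper : ∀ x : ι → ℝ, (∀ i, 0 < x i) → Φ x ≤ ∑ i, x i * (Real.log (x i) + T - 1)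

end Vale.Agent.P072
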