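import Vale.Agent.P072.Net
import Vale.Agent.P072.Pot
import Vale.Agent.P072.Coarea

/-! # P072-T3: the dissipation inequality on a face -/

namespace Vale.Agent.P072

open Finset

variable {d : ℕ}

/-- the weight of a reaction with the variables outside `I` absorbed -/
noncomputable def wt (k : Cpx d × Cpx d → ℝ) (I : Finset (Fin d)) (x : Fin d → ℝ)
    (r : Cpx d × Cpx d) : ℝ := k r * ∏ j ∈ Iᶜ, x j ^ r.1 j

/-- height of a complex -/
noncomputable def hgt {I : Finset (Fin d)} (v : {i // i ∈ I} → ℝ) (y : Cpx d) : ℝ :=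
  ∑ i : {i // i ∈ I}, v i * (y i : ℝ)

/-- logarithm of the `I`-part of the monomial -/
noncomputable def lgm (I : Finset (Fin d)) (x : Fin d → ℝ) (y : Cpx d) : ℝ :=
  ∑ i : {i // i ∈ I}, (y i : ℝ) * Real.log (x i)

theorem mono_split (k : Cpx d × Cpx d → ℝ) (I : Finset (Fin d)) (x : Fin d → ℝ)
    (hx : ∀ i, 0 < x i) (r : Cpx d × Cpx d) :
    k r * mono x r.1 = wt k I x r * Real.exp (lgm I x r.1) := by
  have h1 : Real.exp (lgm I x r.1) = ∏ i ∈ I, x i ^ r.1 i := by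
    unfold lgm
    rw [Real.exp_sum, ← Finset.prod_coe_sort I (fun i => x i ^ r.1 i)]
    refine Finset.prod_congr rfl fun i _ => ?_
    rw [mul_comm, Real.exp_mul, Real.exp_log (hx i), Real.rpow_natCast]
  rw [h1]
  unfold wt mono
  rw [← Finset.prod_mul_prod_compl I (fun i => x i ^ r.1 i)]
  ring

theorem sum_rhs_eq (G : Net d) (k : Cpx d × Cpx d → ℝ) (I : Finset (Fin d)) (x : Fin d → ℝ)
    (v : {i // i ∈ I} → ℝ) :
    ∑ i : {i // i ∈ I}, v i * rhs G k x i =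
      ∑ r ∈ G.R, (k r * mono x r.1) * (hgt v r.2 - hgt v r.1) := by
  unfold rhs hgt
  simp_rw [Finset.mul_sum]
  rw [Finset.sum_comm]
  refine Finset.sum_congr rfl fun r _ => ?_
  rw [← Finset.sum_sub_distrib, Finset.mul_sum]
  refine Finset.sum_congr rfl fun i _ => ?_
  ring

theorem sum_abs_le (I : Finset (Fin d)) (A : ℕ) (y z : Cpx d)
    (hy : 2 * ∑ i, y i ≤ A) (hz : 2 * ∑ i, z i ≤ A) :
    ∑ i : {i // i ∈ I}, |((z i : ℤ) - (y i : ℤ))| ≤ (A : ℤ) := by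
  have h1 : ∑ i : {i // i ∈ I}, |((z i : ℤ) - (y i : ℤ))| ≤
      ∑ i : {i // i ∈ I}, ((z i : ℤ) + (y i : ℤ)) := by
    refine Finset.sum_le_sum fun i _ => ?_
    rw [abs_le]
    constructor <;> omega
  have h2 : ∑ i : {i // i ∈ I}, ((z i : ℤ) + (y i : ℤ)) ≤ ∑ i, ((z i : ℤ) + (y i : ℤ)) := by
    rw [Finset.sum_coe_sort I (fun i => ((z i : ℤ) + (y i : ℤ)))]
    exact Finset.sum_le_sum_of_subset_of_nonneg (Finset.subset_univ _) fun i _ _ => by omega
  have h3 : ∑ i, ((z i : ℤ) + (y i : ℤ)) = ((∑ i, z i : ℕ) : ℤ) + ((∑ i, y i : ℕ) : ℤ) := by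
    rw [Finset.sum_add_distrib]
    push_cast
    rfl
  rw [h3] at h2
  omega

theorem hgt_sub {I : Finset (Fin d)} (v : {i // i ∈ I} → ℝ) (y z : Cpx d) :
    ∑ i : {i // i ∈ I}, (((z i : ℤ) - (y i : ℤ) : ℤ) : ℝ) * v i = hgt v z - hgt v y := by
  unfold hgt
  rw [← Finset.sum_sub_distrib]
  refine Finset.sum_congr rfl fun i _ => ?_
  push_cast
  ring

theorem lgm_sub (I : Finset (Fin d)) (x : Fin d → ℝ) (y z : Cpx d) :
    ∑ i : {i // i ∈ I}, (((z i : ℤ) - (y i : ℤ) : ℤ) : ℝ) * Real.log (x i) =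
      lgm I x z - lgm I x y := by
  unfold lgm
  rw [← Finset.sum_sub_distrib]
  refine Finset.sum_congr rfl fun i _ => ?_
  push_cast
  ring

/-- the coarea inequality on a face -/
theorem face_coarea (G : Net d) (hG : WR G) (k : Cpx d × Cpx d → ℝ) (A : ℕ)
    (hA : ∀ r ∈ G.R, 2 * ∑ i, r.1 i ≤ A) (I : Finset (Fin d)) (ε τ E m : ℝ) (hε : 0 < ε)
    (hτ : (G.R.card : ℝ) * ε⁻¹ ^ 2 * Real.exp (-τ) ≤ 1 / 2)
    (Φ : ({i // i ∈ I} → ℝ) → ℝ) (x : Fin d → ℝ) (hx : ∀ i, 0 < x i)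
    (v : {i // i ∈ I} → ℝ) (hv : Good Φ A τ E m (fun i : {i // i ∈ I} => x i) v)
    (hw : ∀ r ∈ G.R, ε ≤ wt k I x r ∧ wt k I x r ≤ ε⁻¹) :
    ∑ i : {i // i ∈ I}, v i * rhs G k x i ≤
      -(1 / 2) * ∑ r ∈ G.R, (k r * mono x r.1) * max (hgt v r.1 - hgt v r.2) 0 := by
  classical
  rw [sum_rhs_eq]
  refine coarea G.R hG (hgt v) (lgm I x) (fun r => k r * mono x r.1) ε τ hε ?_ ?_ hτ
  · intro r hr
    rw [mono_split k I x hx r]
    exact ⟨mul_le_mul_of_nonneg_right (hw r hr).1 (Real.exp_pos _).le,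
      mul_le_mul_of_nonneg_right (hw r hr).2 (Real.exp_pos _).le⟩
  · intro e he e' he' hlt
    have h := (hv.2.2 (fun i => (e'.1 i : ℤ) - (e.1 i : ℤ))
      (sum_abs_le I A e.1 e'.1 (hA e he) (hA e' he'))).2
    rw [hgt_sub, lgm_sub] at h
    have := h (by linarith)
    linarith

theorem face_ineq (G : Net d) (hG : WR G) (k : Cpx d × Cpx d → ℝ) (A : ℕ)
    (hA : ∀ r ∈ G.R, 2 * ∑ i, r.1 i ≤ A) (I : Finset (Fin d)) (ε τ E m : ℝ) (hε : 0 < ε)
    (hτ : (G.R.card : ℝ) * ε⁻¹ ^ 2 * Real.exp (-τ) ≤ 1 / 2)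
    (Φ : ({i // i ∈ I} → ℝ) → ℝ) (x : Fin d → ℝ) (hx : ∀ i, 0 < x i)
    (v : {i // i ∈ I} → ℝ) (hv : Good Φ A τ E m (fun i : {i // i ∈ I} => x i) v)
    (hw : ∀ r ∈ G.R, ε ≤ wt k I x r ∧ wt k I x r ≤ ε⁻¹) :
    ∑ i : {i // i ∈ I}, v i * rhs G k x i ≤ 0 := by
  have h := face_coarea G hG k A hA I ε τ E m hε hτ Φ x hx v hv hw
  have h2 : 0 ≤ ∑ r ∈ G.R, (k r * mono x r.1) * max (hgt v r.1 - hgt v r.2) 0 := by
    refine Finset.sum_nonneg fun r hr => mul_nonneg ?_ (le_max_right _ _)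
    rw [mono_split k I x hx r]
    exact mul_nonneg (hε.le.trans (hw r hr).1) (Real.exp_pos _).le
  linarith

theorem face_strict (G : Net d) (hG : WR G) (k : Cpx d × Cpx d → ℝ) (A : ℕ)
    (hA : ∀ r ∈ G.R, 2 * ∑ i, r.1 i ≤ A) (I : Finset (Fin d)) (ε τ E m : ℝ) (hε : 0 < ε)
    (hm : 0 < m) (hτ : (G.R.card : ℝ) * ε⁻¹ ^ 2 * Real.exp (-τ) ≤ 1 / 2)
    (Φ : ({i // i ∈ I} → ℝ) → ℝ) (x : Fin d → ℝ) (hx : ∀ i, 0 < x i)
    (v : {i // i ∈ I} → ℝ) (hv : Good Φ A τ E m (fun i : {i // i ∈ I} => x i) v)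
    (hw : ∀ r ∈ G.R, ε ≤ wt k I x r ∧ wt k I x r ≤ ε⁻¹) (L : ℝ)
    (hL : ∀ i ∈ I, |Real.log (x i)| ≤ L)
    (hex : ∃ r ∈ G.R, ∑ i : {i // i ∈ I}, v i * rv r i ≠ 0) :
    ∑ i : {i // i ∈ I}, v i * rhs G k x i ≤ -(1 / 2 * ε * m * Real.exp (-(A * |L|))) := by
  classical
  have h := face_coarea G hG k A hA I ε τ E m hε hτ Φ x hx v hv hw
  obtain ⟨r, hr, hne⟩ := hex
  have hne' : hgt v r.1 ≠ hgt v r.2 := by
    intro heq
    apply hne
    have : ∑ i : {i // i ∈ I}, v i * rv r i = hgt v r.2 - hgt v r.1 := by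
      unfold hgt rv
      rw [← Finset.sum_sub_distrib]
      exact Finset.sum_congr rfl fun i _ => by ring
    rw [this, heq, sub_self]
  obtain ⟨e, he, hdrop⟩ := exists_drop G.R hG (hgt v) r hr hne'
  -- the target of `e` is a source
  have hsrc : 2 * ∑ i, e.2 i ≤ A := by
    rcases Relation.ReflTransGen.cases_head (hG e he) with h0 | ⟨c, hc, _⟩
    · exact absurd h0.symm (G.ne e he)
    · exact hA _ hc
  have hmd : m ≤ hgt v e.1 - hgt v e.2 := by
    have h3 := (hv.2.2 (fun i => (e.1 i : ℤ) - (e.2 i : ℤ))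
      (sum_abs_le I A e.2 e.1 hsrc (hA e he))).1
    rw [hgt_sub] at h3
    rcases h3 with h3 | h3
    · linarith
    · rwa [abs_of_pos (by linarith)] at h3
  have hg : -(A * |L|) ≤ lgm I x e.1 := by
    have hle : |lgm I x e.1| ≤ A * |L| := by
      unfold lgm
      calc |∑ i : {i // i ∈ I}, (e.1 i : ℝ) * Real.log (x i)|
          ≤ ∑ i : {i // i ∈ I}, |(e.1 i : ℝ) * Real.log (x i)| :=
            Finset.abs_sum_le_sum_abs _ _
        _ ≤ ∑ i : {i // i ∈ I}, (e.1 i : ℝ) * |L| := by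
            refine Finset.sum_le_sum fun i _ => ?_
            rw [abs_mul, Nat.abs_cast]
            exact mul_le_mul_of_nonneg_left ((hL i i.2).trans (le_abs_self L))
              (Nat.cast_nonneg _)
        _ = (∑ i ∈ I, (e.1 i : ℝ)) * |L| := by
            rw [← Finset.sum_mul, Finset.sum_coe_sort I (fun i => (e.1 i : ℝ))]
        _ ≤ (A : ℝ) * |L| := by
            refine mul_le_mul_of_nonneg_right ?_ (abs_nonneg L)
            have h4 : ∑ i ∈ I, e.1 i ≤ A := by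
              have h5 : ∑ i ∈ I, e.1 i ≤ ∑ i, e.1 i :=
                Finset.sum_le_sum_of_subset (Finset.subset_univ _)
              have := hA e he
              omega
            exact_mod_cast h4
    exact (abs_le.mp hle).1
  have hterm : ε * Real.exp (-(A * |L|)) * m ≤
      (k e * mono x e.1) * max (hgt v e.1 - hgt v e.2) 0 := by
    rw [mono_split k I x hx e]
    have h6 : ε * Real.exp (-(A * |L|)) ≤ wt k I x e * Real.exp (lgm I x e.1) :=
      mul_le_mul (hw e he).1 (Real.exp_le_exp.mpr hg) (Real.exp_pos _).le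
        (hε.le.trans (hw e he).1)
    refine mul_le_mul h6 (hmd.trans (le_max_left _ _)) hm.le ?_
    exact mul_nonneg (hε.le.trans (hw e he).1) (Real.exp_pos _).le
  have hsum : (k e * mono x e.1) * max (hgt v e.1 - hgt v e.2) 0 ≤
      ∑ r ∈ G.R, (k r * mono x r.1) * max (hgt v r.1 - hgt v r.2) 0 := by
    refine Finset.single_le_sum
      (f := fun r : Cpx d × Cpx d => (k r * mono x r.1) * max (hgt v r.1 - hgt v r.2) 0) ?_ he
    intro r hr
    refine mul_nonneg ?_ (le_max_right _ _)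
    rw [mono_split k I x hx r]
    exact mul_nonneg (hε.le.trans (hw r hr).1) (Real.exp_pos _).le
  have : (1 : ℝ) / 2 * ε * m * Real.exp (-(A * |L|)) =
      1 / 2 * (ε * Real.exp (-(A * |L|)) * m) := by ring
  rw [this]
  linarith

end Vale.Agent.P072
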