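import Vale.Agent.P072.Weights
import Vale.Agent.P072.Dini
import Vale.Agent.P072.K.Assemble

/-! # P072-T5: face potentials -/

namespace Vale.Agent.P072

open Finset

variable {d : ℕ}

theorem face_pot (G : Net d) (hG : WR G) (k : Cpx d × Cpx d → ℝ) (I : Finset (Fin d)) (ε : ℝ)
    (hε : 0 < ε) :
    ∃ (Φ : ({i // i ∈ I} → ℝ) → ℝ) (E T : ℝ), 0 ≤ E ∧ 0 ≤ T ∧
      (∀ z : {i // i ∈ I} → ℝ, (∀ i, 0 < z i) →
        ∑ i, z i * (Real.log (z i) - T - 1) ≤ Φ z ∧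
        Φ z ≤ ∑ i, z i * (Real.log (z i) + T - 1)) ∧
      (∀ (x : ℝ → Fin d → ℝ) (a b : ℝ), a ≤ b → SolOn G k x (Set.Icc a b) →
        (∀ t ∈ Set.Icc a b, (∀ i, 0 < x t i) ∧
          ∀ r ∈ G.R, ε ≤ wt k I (x t) r ∧ wt k I (x t) r ≤ ε⁻¹) →
        Φ (fun i => x b i) ≤ Φ (fun i => x a i)) ∧
      (∀ L : ℝ, ∃ δ : ℝ, 0 < δ ∧ ∀ (x : ℝ → Fin d → ℝ) (a b : ℝ), a ≤ b →
        SolOn G k x (Set.Icc a b) →
        (∀ t ∈ Set.Icc a b, (∀ i, 0 < x t i) ∧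
          (∀ r ∈ G.R, ε ≤ wt k I (x t) r ∧ wt k I (x t) r ≤ ε⁻¹) ∧
          (∀ i ∈ I, |Real.log (x t i)| ≤ L) ∧
          ∀ v : {i // i ∈ I} → ℝ, (∀ i, |v i - Real.log (x t i)| ≤ E) →
            ∃ r ∈ G.R, ∑ i, v i * rv r i ≠ 0) →
        Φ (fun i => x b i) ≤ Φ (fun i => x a i) - δ * (b - a)) := by
  obtain ⟨τ, hτ⟩ := exists_tau G.R.card ε hε
  obtain ⟨A, hA1, hA⟩ := exists_A G
  obtain ⟨Φ, E, m, T, hm, hE, hT, hΦ⟩ := exists_pot {i // i ∈ I} A hA1 τ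
  have hder : ∀ (x : ℝ → Fin d → ℝ) (a b : ℝ), SolOn G k x (Set.Icc a b) →
      ∀ t ∈ Set.Icc a b,
      HasDerivWithinAt (fun t => fun i : {i // i ∈ I} => x t i)
        (fun i : {i // i ∈ I} => rhs G k (x t) i) (Set.Icc a b) t := by
    intro x a b h t ht
    rw [hasDerivWithinAt_pi]
    intro i
    exact (hasDerivWithinAt_pi.mp (h t ht)) i
  refine ⟨Φ, E, T, hE, hT, fun z hz => ⟨hΦ.lower z hz, hΦ.upper z hz⟩, ?_, ?_⟩
  · intro x a b hab hs hx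
    have h := dini Φ A τ E m T 0 hE hΦ (fun t => fun i : {i // i ∈ I} => x t i)
      (fun t => fun i : {i // i ∈ I} => rhs G k (x t) i) a b hab (hder x a b hs)
      (fun t ht i => (hx t ht).1 i) (fun t ht v hv => by
        rw [neg_zero]
        exact face_ineq G hG k A hA I ε τ E m hε hτ Φ (x t) (hx t ht).1 v hv (hx t ht).2)
    rw [zero_mul, sub_zero] at h
    exact h
  · intro L
    refine ⟨1 / 2 * ε * m * Real.exp (-(A * |L|)), by positivity, ?_⟩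
    intro x a b hab hs hx
    exact dini Φ A τ E m T (1 / 2 * ε * m * Real.exp (-(A * |L|))) hE hΦ
      (fun t => fun i : {i // i ∈ I} => x t i)
      (fun t => fun i : {i // i ∈ I} => rhs G k (x t) i) a b hab (hder x a b hs)
      (fun t ht i => (hx t ht).1 i) (fun t ht v hv =>
        face_strict G hG k A hA I ε τ E m hε hm hτ Φ (x t) (hx t ht).1 v hv
          (hx t ht).2.1 L (hx t ht).2.2.1 ((hx t ht).2.2.2 v hv.2.1))

end Vale.Agent.P072
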