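import Vale.Agent.P072.FacePot

/-! # P072-T8: the global potential -/

namespace Vale.Agent.P072

open Finset

variable {d : ℕ}

theorem entropy_lower {z T : ℝ} (hz : 0 < z) : -Real.exp T ≤ z * (Real.log z - T - 1) := by
  have h1 : Real.log (Real.exp T / z) ≤ Real.exp T / z - 1 :=
    Real.log_le_sub_one_of_pos (div_pos (Real.exp_pos T) hz)
  rw [Real.log_div (Real.exp_pos T).ne' hz.ne', Real.log_exp] at h1
  have h2 : z * (T - Real.log z + 1) ≤ z * (Real.exp T / z) :=
    mul_le_mul_of_nonneg_left (by linarith) hz.le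
  rw [mul_div_cancel₀ _ hz.ne'] at h2
  nlinarith

theorem global_pot (G : Net d) (hG : WR G) (k : Cpx d × Cpx d → ℝ)
    (hk : ∀ r ∈ G.R, 0 < k r) :
    ∃ F : (Fin d → ℝ) → ℝ,
      (∀ M : ℝ, ∃ B : ℝ, 0 < B ∧ ∀ x : Fin d → ℝ, (∀ i, 0 < x i) → F x ≤ M →
        ∀ i, x i ≤ B) ∧
      (∀ (x : ℝ → Fin d → ℝ) (a b : ℝ), a ≤ b → SolOn G k x (Set.Icc a b) →
        (∀ t ∈ Set.Icc a b, ∀ i, 0 < x t i) → F (x b) ≤ F (x a)) ∧
      (∀ c : Fin d → ℝ, (∀ i, 0 < c i) → ∃ a0 : ℝ, ∀ L : ℝ, ∃ δ : ℝ, 0 < δ ∧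
        ∀ (x : ℝ → Fin d → ℝ) (a b : ℝ), a ≤ b → SolOn G k x (Set.Icc a b) →
        (∀ t ∈ Set.Icc a b, x t ∈ Cls G c ∧ (∀ i, |Real.log (x t i)| ≤ L) ∧
          a0 < F (x t)) →
        F (x b) ≤ F (x a) - δ * (b - a)) := by
  obtain ⟨ε, hε, hw⟩ := exists_eps G k hk (Finset.univ : Finset (Fin d)) 1 1 one_pos one_pos
  have hw' : ∀ x : Fin d → ℝ, (∀ i, 0 < x i) → ∀ r ∈ G.R,
      ε ≤ wt k Finset.univ x r ∧ wt k Finset.univ x r ≤ ε⁻¹ := fun x hx =>
    hw x hx fun j hj => absurd (Finset.mem_univ j) hj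
  obtain ⟨Φ, E, T, hE, hT, hbd, hmono, hstrict⟩ := face_pot G hG k Finset.univ ε hε
  set N : ℝ := (Fintype.card {i : Fin d // i ∈ (Finset.univ : Finset (Fin d))} : ℝ) with hN
  refine ⟨fun x => Φ fun i => x i, ?_, ?_, ?_⟩
  · intro M
    refine ⟨max (Real.exp (T + 2)) (M + N * Real.exp T),
      lt_max_of_lt_left (Real.exp_pos _), fun x hx hM i => ?_⟩
    have h1 := (hbd (fun i => x i) (fun i => hx i)).1
    set f : {i : Fin d // i ∈ (Finset.univ : Finset (Fin d))} → ℝ :=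
      fun i => x i * (Real.log (x i) - T - 1) with hf
    have h2 : ∀ j, 0 ≤ f j + Real.exp T := fun j => by
      have := entropy_lower (T := T) (hx j)
      simp only [hf]
      linarith
    have h3 : f ⟨i, Finset.mem_univ i⟩ + Real.exp T ≤ ∑ j, (f j + Real.exp T) :=
      Finset.single_le_sum (f := fun j => f j + Real.exp T) (fun j _ => h2 j) (Finset.mem_univ _)
    rw [Finset.sum_add_distrib, Finset.sum_const, Finset.card_univ, nsmul_eq_mul] at h3
    have h4 := Real.exp_pos T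
    have h5 : x i * (Real.log (x i) - T - 1) ≤ M + N * Real.exp T := by
      have : f ⟨i, Finset.mem_univ i⟩ = x i * (Real.log (x i) - T - 1) := rfl
      rw [← this]
      linarith
    rcases le_or_gt (x i) (Real.exp (T + 2)) with h | h
    · exact h.trans (le_max_left _ _)
    · refine le_trans ?_ ((h5).trans (le_max_right _ _))
      have h6 : T + 2 ≤ Real.log (x i) := by
        rw [Real.le_log_iff_exp_le (hx i)]
        exact h.le
      have h7 := hx i
      nlinarith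
  · intro x a b hab hs hx
    exact hmono x a b hab hs fun t ht => ⟨hx t ht, hw' _ (hx t ht)⟩
  · intro c hc
    obtain ⟨Rb, hRb⟩ := perp_bound G c hc E
    refine ⟨N * (Real.exp |Rb| * (|Rb| + T + 1)), fun L => ?_⟩
    obtain ⟨δ, hδ, h⟩ := hstrict L
    refine ⟨δ, hδ, fun x a b hab hs hx => h x a b hab hs fun t ht => ?_⟩
    obtain ⟨hcls, hL, ha0⟩ := hx t ht
    refine ⟨hcls.1, hw' _ hcls.1, fun i _ => hL i, fun v hv => ?_⟩
    by_contra hcon
    push Not at hcon
    have hlog : ∀ i, |Real.log (x t i)| ≤ Rb := by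
      refine hRb (x t) hcls (fun i => v ⟨i, Finset.mem_univ i⟩) (fun r hr => ?_)
        (fun i => hv ⟨i, Finset.mem_univ i⟩)
      rw [← hcon r hr]
      exact (Finset.sum_coe_sort Finset.univ
        (fun i : Fin d => v ⟨i, Finset.mem_univ i⟩ * rv r i)).symm
    have h1 := (hbd (fun i => x t i) (fun i => hcls.1 i)).2
    have h2 : ∑ i : {i : Fin d // i ∈ (Finset.univ : Finset (Fin d))},
        x t i * (Real.log (x t i) + T - 1) ≤ ∑ _i : {i : Fin d // i ∈ (Finset.univ : Finset (Fin d))},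
          Real.exp |Rb| * (|Rb| + T + 1) := by
      refine Finset.sum_le_sum fun i _ => ?_
      have h3 := hcls.1 i
      have h4 : Real.log (x t i) ≤ |Rb| := (le_abs_self _).trans ((hlog i).trans (le_abs_self _))
      have h5 : x t i ≤ Real.exp |Rb| := by
        rw [← Real.exp_log h3]
        exact Real.exp_le_exp.2 h4
      have h6 : 0 ≤ |Rb| + T + 1 := by
        have := abs_nonneg Rb
        linarith
      calc x t i * (Real.log (x t i) + T - 1) ≤ x t i * (|Rb| + T + 1) :=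
            mul_le_mul_of_nonneg_left (by linarith) h3.le
        _ ≤ Real.exp |Rb| * (|Rb| + T + 1) := mul_le_mul_of_nonneg_right h5 h6
    rw [Finset.sum_const, Finset.card_univ, nsmul_eq_mul] at h2
    have ha1 : N * (Real.exp |Rb| * (|Rb| + T + 1)) < Φ fun i => x t i := ha0
    linarith

end Vale.Agent.P072
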