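import Vale.Agent.P072.Net

/-! # P072-T9: solutions stay in the class; uniqueness -/

namespace Vale.Agent.P072

open Finset

variable {d : ℕ}

theorem stay_mono_le (y : Cpx d) (B : ℝ) (hB : 1 ≤ B) (z : Fin d → ℝ) (hz : ∀ i, 0 < z i)
    (hzB : ∀ i, z i ≤ B) (i : Fin d) (hi : y i ≠ 0) :
    mono z y ≤ z i * ∏ j, B ^ y j := by
  classical
  unfold mono
  obtain ⟨m, hm⟩ := Nat.exists_eq_succ_of_ne_zero hi
  rw [← Finset.mul_prod_erase Finset.univ (fun j => z j ^ y j) (Finset.mem_univ i),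
    ← Finset.mul_prod_erase Finset.univ (fun j => B ^ y j) (Finset.mem_univ i), ← mul_assoc]
  have hB0 : 0 ≤ B := by linarith
  apply mul_le_mul
  · simp only [hm, Nat.succ_eq_add_one]
    rw [pow_succ (z i) m, mul_comm]
    apply mul_le_mul_of_nonneg_left _ (hz i).le
    calc z i ^ m ≤ B ^ m := pow_le_pow_left₀ (hz i).le (hzB i) m
      _ ≤ B ^ (m + 1) := pow_le_pow_right₀ hB (Nat.le_succ m)
  · exact Finset.prod_le_prod (fun j _ => pow_nonneg (hz j).le _)
      (fun j _ => pow_le_pow_left₀ (hz j).le (hzB j) _)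
  · exact Finset.prod_nonneg (fun j _ => pow_nonneg (hz j).le _)
  · exact mul_nonneg (hz i).le (pow_nonneg hB0 _)

theorem stay_rhs_ge (G : Net d) (k : Cpx d × Cpx d → ℝ) (hk : ∀ r ∈ G.R, 0 < k r)
    (B : ℝ) (hB : 1 ≤ B) (z : Fin d → ℝ) (hz : ∀ i, 0 < z i)
    (hzB : ∀ i, z i ≤ B) (i : Fin d) :
    -((∑ r ∈ G.R, k r * (r.1 i : ℝ) * ∏ j, B ^ r.1 j) * z i) ≤ rhs G k z i := by
  classical
  unfold rhs
  rw [Finset.sum_mul, ← Finset.sum_neg_distrib]
  apply Finset.sum_le_sum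
  intro r hr
  have hkr := hk r hr
  have hmono : 0 ≤ mono z r.1 := Finset.prod_nonneg (fun j _ => pow_nonneg (hz j).le _)
  have h2 : (0 : ℝ) ≤ (r.2 i : ℝ) := Nat.cast_nonneg _
  have h1 : (0 : ℝ) ≤ (r.1 i : ℝ) := Nat.cast_nonneg _
  by_cases hi : r.1 i = 0
  · rw [hi]
    have : 0 ≤ k r * mono z r.1 * ((r.2 i : ℝ) - ((0 : ℕ) : ℝ)) := by
      apply mul_nonneg (mul_nonneg hkr.le hmono)
      simp
    calc _ = (0 : ℝ) := by simp
      _ ≤ _ := this
  · have hle := stay_mono_le r.1 B hB z hz hzB i hi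
    have hkm : k r * mono z r.1 * (r.1 i : ℝ) ≤ k r * (z i * ∏ j, B ^ r.1 j) * (r.1 i : ℝ) := by
      apply mul_le_mul_of_nonneg_right _ h1
      exact mul_le_mul_of_nonneg_left hle hkr.le
    have hk2 : 0 ≤ k r * mono z r.1 * (r.2 i : ℝ) := mul_nonneg (mul_nonneg hkr.le hmono) h2
    have : k r * mono z r.1 * ((r.2 i : ℝ) - (r.1 i : ℝ)) =
        k r * mono z r.1 * (r.2 i : ℝ) - k r * mono z r.1 * (r.1 i : ℝ) := by ring
    rw [this]
    nlinarith

theorem stay_cont (G : Net d) (k : Cpx d × Cpx d → ℝ)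
    (x : ℝ → Fin d → ℝ) (b : ℝ) (hx : SolOn G k x (Set.Icc 0 b)) :
    ContinuousOn x (Set.Icc 0 b) := fun t ht => (hx t ht).continuousWithinAt

theorem stay_pos (G : Net d) (k : Cpx d × Cpx d → ℝ) (hk : ∀ r ∈ G.R, 0 < k r)
    (x : ℝ → Fin d → ℝ) (b : ℝ) (hx : SolOn G k x (Set.Icc 0 b)) (h0 : ∀ i, 0 < x 0 i) :
    ∀ t ∈ Set.Icc 0 b, ∀ i, 0 < x t i := by
  classical
  by_contra hcon
  push Not at hcon
  obtain ⟨t1, ht1, i1, hi1⟩ := hcon
  have hcont := stay_cont G k x b hx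
  have hconti : ∀ i, ContinuousOn (fun t => x t i) (Set.Icc 0 b) := fun i =>
    (continuous_apply i).comp_continuousOn hcont
  -- bound
  obtain ⟨B0, hB0⟩ := isCompact_Icc.exists_bound_of_continuousOn hcont
  set B := max B0 1 with hB
  have hB1 : 1 ≤ B := le_max_right _ _
  have hxB : ∀ t ∈ Set.Icc 0 b, ∀ i, x t i ≤ B := fun t ht i =>
    (le_abs_self _).trans ((norm_le_pi_norm (x t) i).trans ((hB0 t ht).trans (le_max_left _ _)))
  -- the bad set
  set S : Set ℝ := ⋃ i : Fin d, (Set.Icc 0 b ∩ (fun t => x t i) ⁻¹' Set.Iic 0) with hS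
  have hSclosed : IsClosed S := by
    apply isClosed_iUnion_of_finite
    intro i
    exact (hconti i).preimage_isClosed_of_isClosed isClosed_Icc isClosed_Iic
  have hSne : S.Nonempty := ⟨t1, Set.mem_iUnion.2 ⟨i1, ht1, hi1⟩⟩
  have hSbdd : BddBelow S := ⟨0, fun t ht => by
    obtain ⟨i, hi⟩ := Set.mem_iUnion.1 ht
    exact hi.1.1⟩
  have hmem := hSclosed.csInf_mem hSne hSbdd
  set T := sInf S with hT
  obtain ⟨i, ⟨⟨hT0, hTb⟩, hTi⟩⟩ := Set.mem_iUnion.1 hmem
  have hTi' : x T i ≤ 0 := hTi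
  have hbefore : ∀ t, 0 ≤ t → t < T → ∀ j, 0 < x t j := by
    intro t ht0 htT j
    by_contra hneg
    push Not at hneg
    have : t ∈ S := Set.mem_iUnion.2 ⟨j, ⟨ht0, htT.le.trans hTb⟩, hneg⟩
    exact absurd (csInf_le hSbdd this) (not_le.2 htT)
  set C := ∑ r ∈ G.R, k r * (r.1 i : ℝ) * ∏ j, B ^ r.1 j with hC
  have hder : ∀ t ∈ Set.Ioo 0 T, HasDerivAt (fun s => x s i * Real.exp (C * s))
      (rhs G k (x t) i * Real.exp (C * t) + x t i * (Real.exp (C * t) * C)) t := by
    intro t ht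
    have htb : t ∈ Set.Ioo 0 b := ⟨ht.1, ht.2.trans_le hTb⟩
    have h1 : HasDerivAt x (rhs G k (x t)) t :=
      (hx t ⟨htb.1.le, htb.2.le⟩).hasDerivAt (Icc_mem_nhds htb.1 htb.2)
    have h2 : HasDerivAt (fun s => x s i) (rhs G k (x t) i) t := (hasDerivAt_pi.1 h1) i
    have h3 : HasDerivAt (fun s => Real.exp (C * s)) (Real.exp (C * t) * C) t := by
      have : HasDerivAt (fun s : ℝ => C * s) C t := by
        simpa using (hasDerivAt_id t).const_mul C
      exact this.exp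
    exact h2.mul h3
  have hmonoOn : MonotoneOn (fun s => x s i * Real.exp (C * s)) (Set.Icc 0 T) := by
    apply monotoneOn_of_deriv_nonneg (convex_Icc 0 T)
    · apply ContinuousOn.mul
      · exact (hconti i).mono (Set.Icc_subset_Icc_right hTb)
      · exact (Real.continuous_exp.comp (continuous_const.mul continuous_id)).continuousOn
    · rw [interior_Icc]
      intro t ht
      exact (hder t ht).differentiableAt.differentiableWithinAt
    · rw [interior_Icc]
      intro t ht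
      rw [(hder t ht).deriv]
      have hpos := hbefore t ht.1.le ht.2
      have hge := stay_rhs_ge G k hk B hB1 (x t) hpos
        (hxB t ⟨ht.1.le, ht.2.le.trans hTb⟩) i
      have : rhs G k (x t) i * Real.exp (C * t) + x t i * (Real.exp (C * t) * C) =
          (rhs G k (x t) i + C * x t i) * Real.exp (C * t) := by ring
      rw [this]
      apply mul_nonneg _ (Real.exp_pos _).le
      linarith
  have hfin := hmonoOn (Set.left_mem_Icc.2 hT0) (Set.right_mem_Icc.2 hT0) hT0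
  simp only [mul_zero, Real.exp_zero, mul_one] at hfin
  have hp := h0 i
  have hneg : x T i * Real.exp (C * T) ≤ 0 :=
    mul_nonpos_of_nonpos_of_nonneg hTi' (Real.exp_pos _).le
  linarith

theorem stay_cls (G : Net d) (k : Cpx d × Cpx d → ℝ) (c : Fin d → ℝ)
    (x : ℝ → Fin d → ℝ) (b : ℝ) (hx : SolOn G k x (Set.Icc 0 b))
    (h0 : x 0 - c ∈ stoich G) : ∀ t ∈ Set.Icc 0 b, x t - c ∈ stoich G := by
  classical
  intro t ht
  by_contra hnot
  obtain ⟨f, hf, hker⟩ := Submodule.exists_le_ker_of_notMem hnot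
  apply hf
  have hfc : Continuous f := LinearMap.continuous_of_finiteDimensional f
  have hcont := stay_cont G k x b hx
  have hrhs : ∀ z, rhs G k z ∈ stoich G := by
    intro z
    have : rhs G k z = ∑ r ∈ G.R, (k r * mono z r.1) • rv r := by
      funext i
      simp [rhs, rv, Finset.sum_apply]
    rw [this]
    exact Submodule.sum_mem _ (fun r hr => Submodule.smul_mem _ _
      (Submodule.subset_span ⟨r, hr, rfl⟩))
  have hcontf : ContinuousOn (fun s => f (x s - c)) (Set.Icc 0 b) :=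
    hfc.comp_continuousOn (hcont.sub continuousOn_const)
  set F : (Fin d → ℝ) →L[ℝ] ℝ := LinearMap.toContinuousLinearMap f with hF
  have hderiv : ∀ s ∈ Set.Ico 0 b, HasDerivWithinAt (fun s => f (x s - c)) 0 (Set.Ici s) s := by
    intro s hs
    have h1 := hx s ⟨hs.1, hs.2.le⟩
    have h2 : HasDerivWithinAt x (rhs G k (x s)) (Set.Ici s) s := by
      apply h1.mono_of_mem_nhdsWithin
      have : Set.Icc s b ∈ nhdsWithin s (Set.Ici s) := Icc_mem_nhdsGE hs.2
      exact Filter.mem_of_superset this (Set.Icc_subset_Icc_left hs.1)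
    have h3 : HasDerivWithinAt (fun s => x s - c) (rhs G k (x s)) (Set.Ici s) s :=
      h2.sub_const c
    have h4 : HasDerivWithinAt (fun s => F (x s - c)) (F (rhs G k (x s))) (Set.Ici s) s :=
      F.hasFDerivAt.comp_hasDerivWithinAt s h3
    have h5 : F (rhs G k (x s)) = 0 := hker (hrhs (x s))
    rw [h5] at h4
    exact h4
  have := constant_of_has_deriv_right_zero hcontf hderiv t ht
  rw [this]
  exact hker h0

end Vale.Agent.P072
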