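import Mathlib

/-! # P072-T11: global existence from a priori bounds -/

namespace Vale.Agent.P072

open Set Filter Topology
open scoped NNReal

theorem nb_clamp (R u v : ℝ) :
    |max (-R) (min R u) - max (-R) (min R v)| ≤ |u - v| := by
  rcases le_total R u with h1 | h1 <;> rcases le_total R v with h2 | h2 <;>
  simp only [min_eq_left h1, min_eq_right h1, min_eq_left h2, min_eq_right h2] <;>
  rcases le_total (-R) R with h3 | h3 <;> rcases le_total (-R) u with h4 | h4 <;>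
  rcases le_total (-R) v with h5 | h5 <;>
  simp only [max_eq_left h3, max_eq_right h3, max_eq_left h4, max_eq_right h4,
    max_eq_left h5, max_eq_right h5] <;>
  rcases abs_cases (u - v) with ⟨h6, h7⟩ | ⟨h6, h7⟩ <;>
  rw [abs_le] <;> constructor <;> linarith

/-- coordinatewise clamping -/
noncomputable def nbProj {d : ℕ} (R : ℝ) (x : Fin d → ℝ) : Fin d → ℝ :=
  fun i => max (-R) (min R (x i))

theorem nbProj_lip {d : ℕ} (R : ℝ) : LipschitzWith 1 (nbProj (d := d) R) := by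
  refine LipschitzWith.of_dist_le_mul fun x y => ?_
  rw [NNReal.coe_one, one_mul, dist_pi_le_iff dist_nonneg]
  intro i
  rw [Real.dist_eq]
  refine (nb_clamp R (x i) (y i)).trans ?_
  rw [← Real.dist_eq]
  exact dist_le_pi_dist x y i

theorem nbProj_norm {d : ℕ} {R : ℝ} (hR : 0 ≤ R) (x : Fin d → ℝ) : ‖nbProj R x‖ ≤ R := by
  rw [pi_norm_le_iff_of_nonneg hR]
  intro i
  rw [Real.norm_eq_abs, abs_le]
  exact ⟨le_max_left _ _, max_le (by linarith) (min_le_left _ _)⟩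

theorem nbProj_fix {d : ℕ} {R : ℝ} (x : Fin d → ℝ) (hx : ‖x‖ ≤ R) : nbProj R x = x := by
  have hR : 0 ≤ R := (norm_nonneg _).trans hx
  rw [pi_norm_le_iff_of_nonneg hR] at hx
  funext i
  have := abs_le.1 (Real.norm_eq_abs (x i) ▸ hx i)
  simp [nbProj, this.1, this.2]

theorem nb_Ici_of_Icc {E : Type*} [NormedAddCommGroup E] [NormedSpace ℝ E] {α : ℝ → E} {α' : E}
    {a b t : ℝ} (ht : t ∈ Ico a b) (h : HasDerivWithinAt α α' (Icc a b) t) :
    HasDerivWithinAt α α' (Ici t) t := by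
  have : HasDerivWithinAt α α' (Icc t b) t := h.mono (Icc_subset_Icc_left ht.1)
  exact this.mono_of_mem_nhdsWithin (Icc_mem_nhdsGE ht.2)

theorem nb_exists {d : ℕ} {g : (Fin d → ℝ) → (Fin d → ℝ)} {L C : ℝ≥0} (hlip : LipschitzWith L g)
    (hbd : ∀ x, ‖g x‖ ≤ C) (x0 : Fin d → ℝ) {b : ℝ} (hb : 0 ≤ b) :
    ∃ α : ℝ → Fin d → ℝ, α 0 = x0 ∧ ∀ t ∈ Icc 0 b, HasDerivWithinAt α (g (α t)) (Icc 0 b) t := by
  have h : IsPicardLindelof (fun _ => g) (⟨0, left_mem_Icc.2 hb⟩ : Icc 0 b) x0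
      (C * b.toNNReal) 0 C L := by
    refine ⟨fun _ _ => hlip.lipschitzOnWith, fun x _ => continuousOn_const,
      fun _ _ x _ => hbd x, ?_⟩
    simp only [NNReal.coe_mul, NNReal.coe_zero, sub_zero, Real.coe_toNNReal _ hb]
    refine mul_le_mul_of_nonneg_left ?_ C.2
    exact max_le le_rfl hb
  exact h.exists_eq_forall_mem_Icc_hasDerivWithinAt₀

theorem nb_unique {d : ℕ} {g : (Fin d → ℝ) → (Fin d → ℝ)} {L : ℝ≥0} (hlip : LipschitzWith L g)
    {b : ℝ} {α β : ℝ → Fin d → ℝ} (h0 : α 0 = β 0)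
    (hα : ∀ t ∈ Icc 0 b, HasDerivWithinAt α (g (α t)) (Icc 0 b) t)
    (hβ : ∀ t ∈ Icc 0 b, HasDerivWithinAt β (g (β t)) (Icc 0 b) t) : EqOn α β (Icc 0 b) :=
  ODE_solution_unique_of_mem_Icc_right (v := fun _ => g) (s := fun _ => univ) (K := L)
    (fun t ht => hlip.lipschitzOnWith)
    (fun t ht => (hα t ht).continuousWithinAt)
    (fun t ht => nb_Ici_of_Icc ht (hα t (Ico_subset_Icc_self ht))) (fun _ _ => mem_univ _)
    (fun t ht => (hβ t ht).continuousWithinAt)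
    (fun t ht => nb_Ici_of_Icc ht (hβ t (Ico_subset_Icc_self ht))) (fun _ _ => mem_univ _) h0

theorem global_of_bound {d : ℕ} (f : (Fin d → ℝ) → (Fin d → ℝ)) (hf : ContDiff ℝ 1 f) (B : ℝ)
    (x0 : Fin d → ℝ)
    (hbd : ∀ b : ℝ, 0 ≤ b → ∀ x : ℝ → Fin d → ℝ, x 0 = x0 →
      (∀ t ∈ Set.Icc 0 b, HasDerivWithinAt x (f (x t)) (Set.Icc 0 b) t) →
      ∀ t ∈ Set.Icc 0 b, ∀ i, |x t i| ≤ B) :
    ∃ x : ℝ → Fin d → ℝ, x 0 = x0 ∧
      ∀ t ∈ Set.Ici (0 : ℝ), HasDerivWithinAt x (f (x t)) (Set.Ici 0) t := by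
  set R : ℝ := |B| + 1 with hRdef
  have hR : 0 ≤ R := by positivity
  -- Lipschitz and bounds on the ball
  have hcomp : IsCompact (Metric.closedBall (0 : Fin d → ℝ) R) := isCompact_closedBall _ _
  obtain ⟨L0, hL0⟩ := hcomp.exists_bound_of_continuousOn
    (hf.continuous_fderiv one_ne_zero).continuousOn
  obtain ⟨C0, hC0⟩ := hcomp.exists_bound_of_continuousOn hf.continuous.continuousOn
  have hLip : LipschitzOnWith L0.toNNReal f (Metric.closedBall (0 : Fin d → ℝ) R) := by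
    refine Convex.lipschitzOnWith_of_nnnorm_fderiv_le (𝕜 := ℝ)
      (fun x _ => (hf.differentiable one_ne_zero) x) (fun x hx => ?_) (convex_closedBall _ _)
    rw [← NNReal.coe_le_coe, coe_nnnorm]
    exact (hL0 x hx).trans (Real.le_coe_toNNReal _)
  have hmem : ∀ x : Fin d → ℝ, nbProj R x ∈ Metric.closedBall (0 : Fin d → ℝ) R := fun x =>
    mem_closedBall_zero_iff.2 (nbProj_norm hR x)
  set g : (Fin d → ℝ) → (Fin d → ℝ) := fun x => f (nbProj R x) with hg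
  have hgl : LipschitzWith L0.toNNReal g := by
    refine LipschitzWith.of_dist_le_mul fun x y => ?_
    refine (hLip.dist_le_mul _ (hmem x) _ (hmem y)).trans ?_
    refine mul_le_mul_of_nonneg_left ?_ (NNReal.coe_nonneg _)
    have := (nbProj_lip (d := d) R).dist_le_mul x y
    simpa using this
  have hgb : ∀ x, ‖g x‖ ≤ C0.toNNReal := fun x => (hC0 _ (hmem x)).trans (Real.le_coe_toNNReal _)
  -- any solution of the clamped equation stays in the small ball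
  have hball : ∀ b : ℝ, 0 ≤ b → ∀ x : ℝ → Fin d → ℝ, x 0 = x0 →
      (∀ t ∈ Icc 0 b, HasDerivWithinAt x (f (x t)) (Icc 0 b) t) →
      ∀ t ∈ Icc 0 b, ‖x t‖ ≤ |B| := by
    intro b hb x hx0 hx t ht
    rw [pi_norm_le_iff_of_nonneg (abs_nonneg B)]
    intro i
    exact (hbd b hb x hx0 hx t ht i).trans (le_abs_self B)
  have hx0B : ‖x0‖ ≤ |B| := by
    have := hball 0 le_rfl (fun _ => x0) rfl (fun t _ => by
      have h1 : HasFDerivWithinAt (fun _ : ℝ => x0)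
          (ContinuousLinearMap.toSpanSingleton ℝ (f x0)) (Icc (0:ℝ) 0) t :=
        HasFDerivWithinAt.of_subsingleton (by rw [Icc_self]; exact subsingleton_singleton)
      simpa using h1.hasDerivWithinAt)
      0 (by simp)
    exact this
  have key : ∀ b : ℝ, 0 ≤ b → ∀ α : ℝ → Fin d → ℝ, α 0 = x0 →
      (∀ t ∈ Icc 0 b, HasDerivWithinAt α (g (α t)) (Icc 0 b) t) →
      ∀ t ∈ Icc 0 b, ‖α t‖ ≤ |B| := by
    intro b hb α hα0 hα
    have hcont : ContinuousOn α (Icc 0 b) := fun t ht => (hα t ht).continuousWithinAt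
    have htrue : ∀ c ∈ Icc 0 b, (∀ t ∈ Icc 0 c, ‖α t‖ ≤ R) → ∀ t ∈ Icc 0 c, ‖α t‖ ≤ |B| := by
      intro c hc hcR
      refine hball c hc.1 α hα0 fun t ht => ?_
      have h1 := (hα t ⟨ht.1, ht.2.trans hc.2⟩).mono (Icc_subset_Icc_right hc.2)
      have h2 : g (α t) = f (α t) := by rw [hg]; simp only [nbProj_fix _ (hcR t ht)]
      rwa [h2] at h1
    by_cases hT : (Icc 0 b ∩ {t | R ≤ ‖α t‖}).Nonempty
    · exfalso
      have hclosed : IsClosed (Icc 0 b ∩ α ⁻¹' {z | R ≤ ‖z‖}) :=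
        hcont.preimage_isClosed_of_isClosed isClosed_Icc
          (isClosed_le continuous_const continuous_norm)
      have hcp : IsCompact (Icc 0 b ∩ α ⁻¹' {z | R ≤ ‖z‖}) :=
        isCompact_Icc.of_isClosed_subset hclosed inter_subset_left
      obtain ⟨t0, ht0, hmin⟩ := hcp.exists_isLeast hT
      have ht0R : R ≤ ‖α t0‖ := ht0.2
      have hlt : ∀ t ∈ Icc 0 b, t < t0 → ‖α t‖ < R := by
        intro t ht h
        by_contra h3
        have : t0 ≤ t := hmin ⟨ht, not_lt.1 h3⟩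
        linarith
      have hlt' : ∀ t ∈ Icc 0 b, t < t0 → ‖α t‖ ≤ |B| := by
        intro t ht h
        exact htrue t ht (fun s hs => (hlt s ⟨hs.1, hs.2.trans ht.2⟩ (hs.2.trans_lt h)).le) t
          ⟨ht.1, le_rfl⟩
      have hiv := intermediate_value_Icc ht0.1.1
        ((hcont.mono (Icc_subset_Icc_right ht0.1.2)).norm)
      obtain ⟨s, hs, hs2⟩ := hiv (show |B| + 1 / 2 ∈ Icc ‖α 0‖ ‖α t0‖ from
        ⟨by rw [hα0]; linarith, by rw [hRdef] at ht0R; linarith⟩)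
      have hst : s < t0 := by
        rcases lt_or_eq_of_le hs.2 with h | h
        · exact h
        · exfalso
          rw [h] at hs2
          simp only at hs2
          rw [hRdef] at ht0R
          linarith
      have := hlt' s ⟨hs.1, hs.2.trans ht0.1.2⟩ hst
      simp only at hs2
      linarith
    · have : ∀ t ∈ Icc 0 b, ‖α t‖ ≤ R := by
        intro t ht
        by_contra h
        exact hT ⟨t, ht, (not_le.1 h).le⟩
      exact htrue b ⟨hb, le_rfl⟩ this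
  -- glue
  have hex : ∀ n : ℕ, ∃ α : ℝ → Fin d → ℝ, α 0 = x0 ∧
      ∀ t ∈ Icc 0 (n : ℝ), HasDerivWithinAt α (g (α t)) (Icc 0 (n : ℝ)) t := fun n =>
    nb_exists hgl hgb x0 (Nat.cast_nonneg n)
  choose α hα0 hα using hex
  have hagree : ∀ m n : ℕ, m ≤ n → EqOn (α m) (α n) (Icc 0 (m : ℝ)) := by
    intro m n hmn
    have hmn' : (m : ℝ) ≤ n := by exact_mod_cast hmn
    refine nb_unique hgl (by rw [hα0, hα0]) (hα m) fun t ht => ?_
    exact (hα n t ⟨ht.1, ht.2.trans hmn'⟩).mono (Icc_subset_Icc_right hmn')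
  refine ⟨fun t => α (⌈t⌉₊ + 1) t, by simp [hα0], fun t ht => ?_⟩
  have ht' : (0 : ℝ) ≤ t := ht
  set N : ℕ := ⌈t⌉₊ + 2 with hN
  have htN : t < (⌈t⌉₊ : ℝ) + 1 := by linarith [Nat.le_ceil t]
  have heq : ∀ s : ℝ, 0 ≤ s → s < (⌈t⌉₊ : ℝ) + 1 → α (⌈s⌉₊ + 1) s = α N s := by
    intro s hs0 hs
    have h1 : ⌈s⌉₊ ≤ ⌈t⌉₊ + 1 := by
      rw [Nat.ceil_le]
      push_cast
      linarith
    refine hagree _ _ (by omega) ⟨hs0, ?_⟩
    push_cast
    linarith [Nat.le_ceil s]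
  have hxt : α (⌈t⌉₊ + 1) t = α N t := heq t ht' htN
  have hNcast : (N : ℝ) = (⌈t⌉₊ : ℝ) + 2 := by rw [hN]; push_cast; ring
  have htmem : t ∈ Icc (0 : ℝ) N := ⟨ht', by rw [hNcast]; linarith⟩
  have hfix : g (α N t) = f (α N t) := by
    rw [hg]
    simp only
    rw [nbProj_fix _ ((key N (Nat.cast_nonneg N) (α N) (hα0 N) (hα N) t htmem).trans
      (by rw [hRdef]; linarith))]
  have hder := hα N t htmem
  rw [hfix] at hder
  have hder2 : HasDerivWithinAt (α N) (f (α N t)) (Ici 0) t := by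
    refine hder.mono_of_mem_nhdsWithin ?_
    have : Iio ((⌈t⌉₊ : ℝ) + 1) ∈ 𝓝 t := Iio_mem_nhds htN
    filter_upwards [self_mem_nhdsWithin, mem_nhdsWithin_of_mem_nhds this] with s hs1 hs2
    exact ⟨hs1, by rw [hNcast]; linarith [show s < (⌈t⌉₊ : ℝ) + 1 from hs2]⟩
  have hev : (fun t => α (⌈t⌉₊ + 1) t) =ᶠ[𝓝[Ici 0] t] α N := by
    have : Iio ((⌈t⌉₊ : ℝ) + 1) ∈ 𝓝 t := Iio_mem_nhds htN
    filter_upwards [self_mem_nhdsWithin, mem_nhdsWithin_of_mem_nhds this] with s hs1 hs2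
    exact heq s hs1 hs2
  show HasDerivWithinAt (fun t => α (⌈t⌉₊ + 1) t) (f (α (⌈t⌉₊ + 1) t)) (Ici 0) t
  rw [hxt]
  exact hder2.congr_of_eventuallyEq hev hxt

end Vale.Agent.P072
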