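import Vale.Agent.P072.Barrier

/-! # P072-T12: every bounded trajectory is persistent -/

namespace Vale.Agent.P072

open Finset

variable {d : ℕ}

theorem persist_face (G : Net d) (hG : WR G) (k : Cpx d × Cpx d → ℝ) (hk : ∀ r ∈ G.R, 0 < k r)
    (B : ℝ) (hB : 0 < B) (x : ℝ → Fin d → ℝ) (hx : SolOn G k x (Set.Ici 0))
    (hpos : ∀ t, 0 ≤ t → ∀ i, 0 < x t i ∧ x t i ≤ B) :
    ∀ (n : ℕ) (I : Finset (Fin d)), Iᶜ.card = n → I.Nonempty →
      ∃ ρ : ℝ, 0 < ρ ∧ ∀ t, 0 ≤ t → ∃ i ∈ I, ρ ≤ x t i := by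
  intro n
  induction n with
  | zero =>
    intro I hI hne
    have hIu : I = Finset.univ := by
      rw [Finset.card_eq_zero, Finset.compl_eq_empty_iff] at hI
      exact hI
    obtain ⟨r1, hr1, h⟩ := barrier G hG k hk I 1 B one_pos hB
    obtain ⟨i0, hi0⟩ := hne
    have hx0 : 0 < x 0 i0 := (hpos 0 le_rfl i0).1
    obtain ⟨ρ0, hρ0, h2⟩ := h r1 hr1 le_rfl (min r1 (x 0 i0)) (lt_min hr1 hx0) (min_le_left _ _)
    refine ⟨ρ0, hρ0, ?_⟩
    intro t ht
    apply h2 x 0 t ht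
    · intro u hu
      exact (hx u hu.1).mono Set.Icc_subset_Ici_self
    · intro u hu
      refine ⟨hpos u hu.1, ?_⟩
      intro _ j hj
      exact absurd (hIu ▸ Finset.mem_univ j) hj
    · exact ⟨i0, hi0, min_le_right _ _⟩
  | succ n ih =>
    intro I hI hne
    obtain ⟨i0, hi0⟩ := hne
    have hstep : ∀ j : Fin d, ∃ r : ℝ, 0 < r ∧ (j ∉ I → ∀ t, 0 ≤ t → ∃ i ∈ insert j I, r ≤ x t i) := by
      intro j
      by_cases hj : j ∈ I
      · exact ⟨1, one_pos, fun h => absurd hj h⟩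
      · have hcard : (insert j I)ᶜ.card = n := by
          rw [Finset.card_compl, Finset.card_insert_of_notMem hj]
          rw [Finset.card_compl] at hI
          omega
        obtain ⟨r, hr, h⟩ := ih (insert j I) hcard (Finset.insert_nonempty _ _)
        exact ⟨r, hr, fun _ => h⟩
    choose rr hrr hrr2 using hstep
    have hune : (Finset.univ : Finset (Fin d)).Nonempty := ⟨i0, Finset.mem_univ _⟩
    have hlo : 0 < Finset.univ.inf' hune rr := by
      rw [Finset.lt_inf'_iff]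
      intro j _
      exact hrr j
    have hlole : ∀ j, Finset.univ.inf' hune rr ≤ rr j := fun j =>
      Finset.inf'_le _ (Finset.mem_univ j)
    obtain ⟨r1, hr1, h⟩ := barrier G hG k hk I (Finset.univ.inf' hune rr) B hlo hB
    have hx0 : 0 < x 0 i0 := (hpos 0 le_rfl i0).1
    have hr : 0 < min r1 (Finset.univ.inf' hune rr / 2) := lt_min hr1 (by linarith)
    obtain ⟨ρ0, hρ0, h2⟩ := h (min r1 (Finset.univ.inf' hune rr / 2)) hr (min_le_left _ _)
      (min (min r1 (Finset.univ.inf' hune rr / 2)) (x 0 i0)) (lt_min hr hx0) (min_le_left _ _)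
    refine ⟨ρ0, hρ0, ?_⟩
    intro t ht
    apply h2 x 0 t ht
    · intro u hu
      exact (hx u hu.1).mono Set.Icc_subset_Ici_self
    · intro u hu
      refine ⟨hpos u hu.1, ?_⟩
      intro hsm j hj
      obtain ⟨i, hi, hri⟩ := hrr2 j hj u hu.1
      rcases Finset.mem_insert.mp hi with h3 | h3
      · rw [← h3]
        exact (hlole j).trans (h3 ▸ hri)
      · exfalso
        have h4 := hsm i h3
        have h5 := h4.trans (min_le_right _ _)
        have h6 := (hlole j).trans hri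
        linarith
    · exact ⟨i0, hi0, min_le_right _ _⟩

theorem persist (G : Net d) (hG : WR G) (k : Cpx d × Cpx d → ℝ) (hk : ∀ r ∈ G.R, 0 < k r)
    (B : ℝ) (hB : 0 < B) (x : ℝ → Fin d → ℝ) (hx : SolOn G k x (Set.Ici 0))
    (hpos : ∀ t, 0 ≤ t → ∀ i, 0 < x t i ∧ x t i ≤ B) :
    ∃ ρ : ℝ, 0 < ρ ∧ ∀ t, 0 ≤ t → ∀ i, ρ ≤ x t i := by
  rcases isEmpty_or_nonempty (Fin d) with hE | ⟨⟨i0⟩⟩
  · exact ⟨1, one_pos, fun t _ i => (hE.false i).elim⟩
  have hstep : ∀ j : Fin d, ∃ r : ℝ, 0 < r ∧ ∀ t, 0 ≤ t → r ≤ x t j := by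
    intro j
    obtain ⟨r, hr, h⟩ := persist_face G hG k hk B hB x hx hpos _ {j} rfl
      (Finset.singleton_nonempty j)
    refine ⟨r, hr, fun t ht => ?_⟩
    obtain ⟨i, hi, hri⟩ := h t ht
    rw [Finset.mem_singleton] at hi
    rw [hi] at hri
    exact hri
  choose rr hrr hrr2 using hstep
  have hune : (Finset.univ : Finset (Fin d)).Nonempty := ⟨i0, Finset.mem_univ _⟩
  refine ⟨Finset.univ.inf' hune rr, ?_, ?_⟩
  · rw [Finset.lt_inf'_iff]
    intro j _
    exact hrr j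
  · intro t ht i
    exact (Finset.inf'_le _ (Finset.mem_univ i)).trans (hrr2 i t ht)

end Vale.Agent.P072
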