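import Vale.Agent.P072.Net

/-! # P072-T10: uniqueness -/

namespace Vale.Agent.P072

open Finset

variable {d : ℕ}

theorem rhs_contDiff (G : Net d) (k : Cpx d × Cpx d → ℝ) : ContDiff ℝ 1 (rhs G k) := by
  unfold rhs mono
  refine contDiff_pi.2 fun i => ?_
  refine ContDiff.sum fun r _ => ?_
  refine ContDiff.mul (ContDiff.mul contDiff_const ?_) contDiff_const
  exact contDiff_prod fun j _ => (contDiff_apply ℝ ℝ j).pow _

theorem uniq (G : Net d) (k : Cpx d × Cpx d → ℝ) (x z : ℝ → Fin d → ℝ) (b : ℝ)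
    (hx : SolOn G k x (Set.Icc 0 b)) (hz : SolOn G k z (Set.Icc 0 b)) (h0 : x 0 = z 0) :
    ∀ t ∈ Set.Icc 0 b, x t = z t := by
  have hxc : ContinuousOn x (Set.Icc 0 b) := fun t ht => (hx t ht).continuousWithinAt
  have hzc : ContinuousOn z (Set.Icc 0 b) := fun t ht => (hz t ht).continuousWithinAt
  obtain ⟨R₁, hR₁⟩ := (isCompact_Icc.image_of_continuousOn hxc).isBounded.subset_closedBall 0
  obtain ⟨R₂, hR₂⟩ := (isCompact_Icc.image_of_continuousOn hzc).isBounded.subset_closedBall 0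
  set B := Metric.closedBall (0 : Fin d → ℝ) (max R₁ R₂) with hB
  have hBx : ∀ t ∈ Set.Icc 0 b, x t ∈ B := fun t ht =>
    Metric.closedBall_subset_closedBall (le_max_left _ _) (hR₁ ⟨t, ht, rfl⟩)
  have hBz : ∀ t ∈ Set.Icc 0 b, z t ∈ B := fun t ht =>
    Metric.closedBall_subset_closedBall (le_max_right _ _) (hR₂ ⟨t, ht, rfl⟩)
  have hc : ContinuousOn (fun y => fderiv ℝ (rhs G k) y) B :=
    ((rhs_contDiff G k).continuous_fderiv one_ne_zero).continuousOn
  obtain ⟨C, hC⟩ := (isCompact_closedBall (0 : Fin d → ℝ) (max R₁ R₂)).exists_bound_of_continuousOn hc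
  have hLip : LipschitzOnWith C.toNNReal (rhs G k) B := by
    refine (convex_closedBall _ _).lipschitzOnWith_of_nnnorm_fderiv_le (𝕜 := ℝ) ?_ ?_
    · exact fun y _ => (rhs_contDiff G k).differentiable one_ne_zero y
    · intro y hy
      rw [← NNReal.coe_le_coe, coe_nnnorm]
      exact (hC y hy).trans (Real.le_coe_toNNReal C)
  have key := ODE_solution_unique_of_mem_Icc_right (v := fun _ => rhs G k) (s := fun _ => B)
    (K := C.toNNReal) (f := x) (g := z) (a := 0) (b := b)
    (fun t _ => hLip) hxc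
    (fun t ht => ((hx t (Set.Ico_subset_Icc_self ht)).mono_of_mem_nhdsWithin
      (Icc_mem_nhdsGE_of_mem ht)))
    (fun t ht => hBx t (Set.Ico_subset_Icc_self ht)) hzc
    (fun t ht => ((hz t (Set.Ico_subset_Icc_self ht)).mono_of_mem_nhdsWithin
      (Icc_mem_nhdsGE_of_mem ht)))
    (fun t ht => hBz t (Set.Ico_subset_Icc_self ht)) h0
  exact key

end Vale.Agent.P072
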