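import Vale.Agent.P072.GlobalPot
import Vale.Agent.P072.Stay
import Vale.Agent.P072.Uniq
import Vale.Agent.P072.NoBlow
import Vale.Agent.P072.Uniform

/-! # P072-T14: permanence -/

namespace Vale.Agent.P072

open Finset

variable {d : ℕ}

theorem SolOn.mono' {G : Net d} {k : Cpx d × Cpx d → ℝ} {x : ℝ → Fin d → ℝ} {s t : Set ℝ}
    (h : SolOn G k x t) (hst : s ⊆ t) : SolOn G k x s :=
  fun u hu => (h u (hst hu)).mono hst

theorem exist_sol (G : Net d) (hG : WR G) (k : Cpx d × Cpx d → ℝ)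
    (hk : ∀ r ∈ G.R, 0 < k r) (x0 : Fin d → ℝ) (h0 : ∀ i, 0 < x0 i) :
    ∃ x : ℝ → Fin d → ℝ, x 0 = x0 ∧ SolOn G k x (Set.Ici 0) := by
  obtain ⟨F, hF1, hF2, -⟩ := global_pot G hG k hk
  obtain ⟨B, hB, hB'⟩ := hF1 (F x0)
  refine global_of_bound (rhs G k) (rhs_contDiff G k) B x0 ?_
  intro b hb x hx0 hx t ht i
  have hpos := stay_pos G k hk x b hx (by rw [hx0]; exact h0)
  have h1 : F (x t) ≤ F (x 0) := hF2 x 0 t ht.1
    (SolOn.mono' (t := Set.Icc 0 b) hx (Set.Icc_subset_Icc_right ht.2))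
    (fun s hs => hpos s ⟨hs.1, hs.2.trans ht.2⟩)
  rw [hx0] at h1
  rw [abs_of_pos (hpos t ht i)]
  exact hB' (x t) (hpos t ht) h1 i

theorem shift_sol (G : Net d) (k : Cpx d × Cpx d → ℝ) (x : ℝ → Fin d → ℝ)
    (hx : SolOn G k x (Set.Ici 0)) (t1 : ℝ) (ht1 : 0 ≤ t1) :
    SolOn G k (fun s => x (t1 + s)) (Set.Ici 0) := by
  intro s hs
  have hs' : (0 : ℝ) ≤ s := hs
  have h1 := hx (t1 + s) (Set.mem_Ici.2 (by linarith))
  have h2 : HasDerivWithinAt (fun s : ℝ => t1 + s) 1 (Set.Ici 0) s := by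
    simpa using (hasDerivWithinAt_id s (Set.Ici 0)).const_add t1
  have h3 := h1.scomp s h2 (fun u hu => Set.mem_Ici.2 (by
    have : (0 : ℝ) ≤ u := hu
    linarith))
  simpa [Function.comp_def] using h3

theorem permanence (G : Net d) (hG : WR G) (k : Cpx d × Cpx d → ℝ)
    (hk : ∀ r ∈ G.R, 0 < k r) (c : Fin d → ℝ) (hc : ∀ i, 0 < c i) :
    ∃ K : Set (Fin d → ℝ), K ⊆ Cls G c ∧ IsCompact K ∧
      ∀ x : ℝ → Fin d → ℝ, SolOn G k x (Set.Ici 0) → x 0 ∈ Cls G c →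
        ∃ t0 : ℝ, ∀ t, t0 ≤ t → x t ∈ K := by
  obtain ⟨F, hF1, hF2, hF3⟩ := global_pot G hG k hk
  obtain ⟨a0, ha0⟩ := hF3 c hc
  obtain ⟨B0, hB0, hB0'⟩ := hF1 a0
  obtain ⟨ρ, hρ, hunif⟩ := uniform G hG k hk c B0 hB0
  refine ⟨{x | x - c ∈ stoich G} ∩ Set.pi Set.univ (fun _ => Set.Icc ρ B0), ?_, ?_, ?_⟩
  · rintro x ⟨h1, h2⟩
    exact ⟨fun i => hρ.trans_le (h2 i (Set.mem_univ i)).1, h1⟩
  · refine IsCompact.inter_left (isCompact_univ_pi fun _ => isCompact_Icc) ?_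
    have h1 : IsClosed (stoich G : Set (Fin d → ℝ)) := Submodule.closed_of_finiteDimensional _
    exact h1.preimage (by fun_prop : Continuous fun x : Fin d → ℝ => x - c)
  · intro x hx hx0
    have hsol : ∀ a b, 0 ≤ a → SolOn G k x (Set.Icc a b) := fun a b ha =>
      hx.mono' fun t ht => Set.mem_Ici.2 (ha.trans ht.1)
    have hpos : ∀ t, 0 ≤ t → ∀ i, 0 < x t i := fun t ht =>
      stay_pos G k hk x t (hsol 0 t le_rfl) hx0.1 t ⟨ht, le_rfl⟩
    have hcls : ∀ t, 0 ≤ t → x t - c ∈ stoich G := fun t ht =>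
      stay_cls G k c x t (hsol 0 t le_rfl) hx0.2 t ⟨ht, le_rfl⟩
    have hdec : ∀ a b, 0 ≤ a → a ≤ b → F (x b) ≤ F (x a) := fun a b ha hab =>
      hF2 x a b hab (hsol a b ha) (fun t ht => hpos t (ha.trans ht.1))
    obtain ⟨B1, hB1, hB1'⟩ := hF1 (F (x 0))
    have hle : ∀ t, 0 ≤ t → ∀ i, x t i ≤ B1 := fun t ht =>
      hB1' (x t) (hpos t ht) (hdec 0 t le_rfl ht)
    obtain ⟨ρ1, hρ1, hρ1'⟩ := persist G hG k hk B1 hB1 x hx (fun t ht i => ⟨hpos t ht i, hle t ht i⟩)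
    have hL : ∀ t, 0 ≤ t → ∀ i, |Real.log (x t i)| ≤ max |Real.log ρ1| |Real.log B1| := by
      intro t ht i
      exact abs_le_max_abs_abs (Real.log_le_log hρ1 (hρ1' t ht i))
        (Real.log_le_log (hpos t ht i) (hle t ht i))
    obtain ⟨δ, hδ, hδ'⟩ := ha0 (max |Real.log ρ1| |Real.log B1|)
    have hex : ∃ t1, 0 ≤ t1 ∧ F (x t1) ≤ a0 := by
      by_contra hcon
      push Not at hcon
      have h1 : a0 < F (x 0) := hcon 0 le_rfl
      set b : ℝ := (F (x 0) - a0) / δ with hb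
      have hb0 : 0 ≤ b := div_nonneg (by linarith) hδ.le
      have h2 := hδ' x 0 b hb0 (hsol 0 b le_rfl) (fun t ht =>
        ⟨⟨hpos t ht.1, hcls t ht.1⟩, hL t ht.1, hcon t ht.1⟩)
      have h3 : δ * b = F (x 0) - a0 := by rw [hb]; field_simp
      have h4 := hcon b hb0
      rw [sub_zero, h3] at h2
      linarith
    obtain ⟨t1, ht1, hFt1⟩ := hex
    obtain ⟨t0, ht0, hfin⟩ := hunif (fun s => x (t1 + s)) (shift_sol G k x hx t1 ht1) (fun t ht =>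
      ⟨⟨hpos _ (by linarith), hcls _ (by linarith)⟩,
        hB0' _ (hpos _ (by linarith)) ((hdec t1 (t1 + t) ht1 (by linarith)).trans hFt1)⟩)
    refine ⟨t1 + t0, fun t ht => ⟨hcls t (by linarith), fun i _ => ⟨?_, ?_⟩⟩⟩
    · have := hfin (t - t1) (by linarith) i
      simpa using this
    · exact hB0' _ (hpos t (by linarith)) ((hdec t1 t ht1 (by linarith)).trans hFt1) i

end Vale.Agent.P072
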