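import Mathlib

/-! # P072: mass-action systems -/

namespace Vale.Agent.P072

open Finset

/-- a complex: a vector of nonnegative integers -/
abbrev Cpx (d : ℕ) := Fin d → ℕ

/-- a finite reaction network: a finite set of reactions `y → y'`, `y ≠ y'` -/
structure Net (d : ℕ) where
  R : Finset (Cpx d × Cpx d)
  ne : ∀ r ∈ R, r.1 ≠ r.2

variable {d : ℕ}

/-- weak reversibility: every reaction `y → y'` has a directed path from `y'` to `y` -/
def WR (G : Net d) : Prop :=
  ∀ r ∈ G.R, Relation.ReflTransGen (fun a b => (a, b) ∈ G.R) r.2 r.1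

/-- the monomial `x^y` -/
def mono (x : Fin d → ℝ) (y : Cpx d) : ℝ := ∏ i, x i ^ y i

/-- mass-action vector field -/
def rhs (G : Net d) (k : Cpx d × Cpx d → ℝ) (x : Fin d → ℝ) : Fin d → ℝ :=
  fun i => ∑ r ∈ G.R, k r * mono x r.1 * ((r.2 i : ℝ) - (r.1 i : ℝ))

/-- reaction vector -/
def rv (r : Cpx d × Cpx d) : Fin d → ℝ := fun i => (r.2 i : ℝ) - (r.1 i : ℝ)

/-- stoichiometric subspace -/
def stoich (G : Net d) : Submodule ℝ (Fin d → ℝ) :=
  Submodule.span ℝ {z | ∃ r ∈ G.R, z = rv r}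

/-- positive stoichiometric class of `c` -/
def Cls (G : Net d) (c : Fin d → ℝ) : Set (Fin d → ℝ) :=
  {x | (∀ i, 0 < x i) ∧ x - c ∈ stoich G}

/-- `x` solves the mass-action equations on the time set `s` -/
def SolOn (G : Net d) (k : Cpx d × Cpx d → ℝ) (x : ℝ → Fin d → ℝ) (s : Set ℝ) : Prop :=
  ∀ t ∈ s, HasDerivWithinAt x (rhs G k (x t)) s t

end Vale.Agent.P072
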