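import Vale.Agent.P072.FaceIneq

/-! # P072-T4: constants -/

namespace Vale.Agent.P072

open Finset

variable {d : ℕ}

theorem exists_pos_le {α : Type*} (s : Finset α) (f : α → ℝ) (hf : ∀ a ∈ s, 0 < f a) :
    ∃ ε : ℝ, 0 < ε ∧ ∀ a ∈ s, ε ≤ f a := by
  classical
  induction s using Finset.induction_on with
  | empty => exact ⟨1, one_pos, by simp⟩
  | insert a s ha ih =>
    obtain ⟨ε, hε, h⟩ := ih fun b hb => hf b (Finset.mem_insert_of_mem hb)
    refine ⟨min ε (f a), lt_min hε (hf a (Finset.mem_insert_self a s)), fun b hb => ?_⟩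
    rcases Finset.mem_insert.1 hb with rfl | hb
    · exact min_le_right _ _
    · exact (min_le_left _ _).trans (h b hb)

theorem exists_eps (G : Net d) (k : Cpx d × Cpx d → ℝ) (hk : ∀ r ∈ G.R, 0 < k r)
    (I : Finset (Fin d)) (lo B : ℝ) (hlo : 0 < lo) (hB : 0 < B) :
    ∃ ε : ℝ, 0 < ε ∧ ∀ x : Fin d → ℝ, (∀ i, 0 < x i) → (∀ j, j ∉ I → lo ≤ x j ∧ x j ≤ B) →
      ∀ r ∈ G.R, ε ≤ wt k I x r ∧ wt k I x r ≤ ε⁻¹ := by
  obtain ⟨ε, hε, h⟩ := exists_pos_le G.R
    (fun r => min (k r * ∏ j ∈ Iᶜ, lo ^ r.1 j) (k r * ∏ j ∈ Iᶜ, B ^ r.1 j)⁻¹) (fun r hr => by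
      have := hk r hr
      have h1 : 0 < ∏ j ∈ Iᶜ, lo ^ r.1 j := Finset.prod_pos fun j _ => pow_pos hlo _
      have h2 : 0 < ∏ j ∈ Iᶜ, B ^ r.1 j := Finset.prod_pos fun j _ => pow_pos hB _
      exact lt_min (mul_pos this h1) (inv_pos.2 (mul_pos this h2)))
  refine ⟨ε, hε, fun x hx hj r hr => ?_⟩
  have hkr := hk r hr
  have h2 : 0 < ∏ j ∈ Iᶜ, B ^ r.1 j := Finset.prod_pos fun j _ => pow_pos hB _
  constructor
  · refine ((h r hr).trans (min_le_left _ _)).trans ?_
    unfold wt
    refine mul_le_mul_of_nonneg_left ?_ hkr.le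
    refine Finset.prod_le_prod (fun j _ => (pow_pos hlo _).le) fun j hj' => ?_
    exact pow_le_pow_left₀ hlo.le (hj j (Finset.mem_compl.1 hj')).1 _
  · have h3 : ε ≤ (k r * ∏ j ∈ Iᶜ, B ^ r.1 j)⁻¹ := (h r hr).trans (min_le_right _ _)
    have h4 : k r * ∏ j ∈ Iᶜ, B ^ r.1 j ≤ ε⁻¹ := (le_inv_comm₀ hε (mul_pos hkr h2)).1 h3
    refine le_trans ?_ h4
    unfold wt
    refine mul_le_mul_of_nonneg_left ?_ hkr.le
    refine Finset.prod_le_prod (fun j _ => (pow_pos (hx j) _).le) fun j hj' => ?_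
    exact pow_le_pow_left₀ (hx j).le (hj j (Finset.mem_compl.1 hj')).2 _

theorem exists_tau (n : ℕ) (ε : ℝ) (hε : 0 < ε) :
    ∃ τ : ℝ, (n : ℝ) * ε⁻¹ ^ 2 * Real.exp (-τ) ≤ 1 / 2 := by
  have h : 0 ≤ (n : ℝ) * ε⁻¹ ^ 2 := by positivity
  refine ⟨Real.log (2 * ((n : ℝ) * ε⁻¹ ^ 2) + 1), ?_⟩
  rw [Real.exp_neg, Real.exp_log (by linarith), ← div_eq_mul_inv, div_le_iff₀ (by linarith)]
  linarith

theorem exists_A (G : Net d) : ∃ A : ℕ, 1 ≤ A ∧ ∀ r ∈ G.R, 2 * ∑ i, r.1 i ≤ A := by
  refine ⟨1 + ∑ r ∈ G.R, 2 * ∑ i, r.1 i, by omega, fun r hr => ?_⟩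
  have := Finset.single_le_sum (f := fun r : Cpx d × Cpx d => 2 * ∑ i, r.1 i)
    (fun _ _ => Nat.zero_le _) hr
  omega

theorem coord_bound {x c v E : ℝ} (hx : 0 < x) (hc : 0 < c) (hv : |v - Real.log x| ≤ E) :
    |x - c| * (|Real.log x - Real.log c| - (|Real.log c| + E)) ≤ (x - c) * v := by
  set δ := Real.log x - Real.log c with hδ
  have hsame : |x - c| * |δ| = (x - c) * δ := by
    rw [← abs_mul, abs_of_nonneg]
    rcases le_total x c with h | h
    · exact mul_nonneg_of_nonpos_of_nonpos (by linarith)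
        (by rw [hδ]; linarith [Real.log_le_log hx h])
    · exact mul_nonneg (by linarith) (by rw [hδ]; linarith [Real.log_le_log hc h])
  have h1 : (x - c) * v = (x - c) * δ + (x - c) * (Real.log c + (v - Real.log x)) := by
    rw [hδ]; ring
  have h2 : |(x - c) * (Real.log c + (v - Real.log x))| ≤ |x - c| * (|Real.log c| + E) := by
    rw [abs_mul]
    refine mul_le_mul_of_nonneg_left ?_ (abs_nonneg _)
    exact (abs_add_le _ _).trans (add_le_add le_rfl hv)
  have h3 := neg_abs_le ((x - c) * (Real.log c + (v - Real.log x)))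
  rw [h1, mul_sub, hsame]
  linarith

theorem coord_lower {x c v E : ℝ} (hx : 0 < x) (hc : 0 < c) (hv : |v - Real.log x| ≤ E) :
    -((|Real.log c| + E) * (c * (Real.exp (|Real.log c| + E) + 1))) ≤ (x - c) * v := by
  refine le_trans ?_ (coord_bound hx hc hv)
  have hE : 0 ≤ E := (abs_nonneg _).trans hv
  set M := |Real.log c| + E with hM
  have hM0 : 0 ≤ M := by positivity
  set δ := Real.log x - Real.log c with hδ
  have hF : 0 ≤ M * (c * (Real.exp M + 1)) := by positivity
  rcases le_total M |δ| with h | h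
  · have : 0 ≤ |x - c| * (|δ| - M) := mul_nonneg (abs_nonneg _) (by linarith)
    linarith
  · have hxc : x = c * Real.exp δ := by
      rw [hδ, Real.exp_sub, Real.exp_log hx, Real.exp_log hc]
      field_simp
    have h1 : |x - c| ≤ c * (Real.exp M + 1) := by
      rw [hxc]
      have e : c * Real.exp δ - c = c * (Real.exp δ - 1) := by ring
      rw [e, abs_mul, abs_of_pos hc]
      refine mul_le_mul_of_nonneg_left ?_ hc.le
      have h2 : Real.exp δ ≤ Real.exp M := Real.exp_le_exp.2 ((le_abs_self δ).trans h)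
      have h3 := Real.exp_pos δ
      exact abs_le.2 ⟨by linarith, by linarith⟩
    have h4 : |x - c| * (M - |δ|) ≤ c * (Real.exp M + 1) * M :=
      mul_le_mul h1 (by linarith [abs_nonneg δ]) (by linarith) (by positivity)
    nlinarith

theorem coord_upper {x c v E F : ℝ} (hx : 0 < x) (hc : 0 < c) (hv : |v - Real.log x| ≤ E)
    (hF : 0 ≤ F) (h : (x - c) * v ≤ F) :
    |Real.log x| ≤ |Real.log c| + (1 + (|Real.log c| + E) + 2 * F / c) := by
  have hE : 0 ≤ E := (abs_nonneg _).trans hv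
  have hb := coord_bound hx hc hv
  set M := |Real.log c| + E with hM
  have hM0 : 0 ≤ M := by positivity
  set δ := Real.log x - Real.log c with hδ
  have hFc : 0 ≤ 2 * F / c := by positivity
  have key : |δ| ≤ 1 + M + 2 * F / c := by
    by_contra hcon
    push Not at hcon
    have h1 : 1 ≤ |δ| := by linarith
    have h2 : 2 * F / c < |δ| - M := by linarith
    have hxc : x = c * Real.exp δ := by
      rw [hδ, Real.exp_sub, Real.exp_log hx, Real.exp_log hc]
      field_simp
    have h3 : c / 2 ≤ |x - c| := by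
      rw [hxc]
      have e : c * Real.exp δ - c = c * (Real.exp δ - 1) := by ring
      rw [e, abs_mul, abs_of_pos hc]
      have h4 : 1 / 2 ≤ |Real.exp δ - 1| := by
        rcases le_total 0 δ with h5 | h5
        · rw [abs_of_nonneg h5] at h1
          have := Real.add_one_le_exp δ
          exact le_trans (by linarith) (le_abs_self _)
        · rw [abs_of_nonpos h5] at h1
          have h6 : Real.exp δ ≤ Real.exp (-1) := Real.exp_le_exp.2 (by linarith)
          have h7 : Real.exp (-1) ≤ 1 / 2 := by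
            rw [Real.exp_neg]
            have := Real.add_one_le_exp (1 : ℝ)
            have h8 : (2 : ℝ) ≤ Real.exp 1 := by linarith
            rw [one_div]
            exact inv_anti₀ (by norm_num) h8
          refine le_trans ?_ (neg_le_abs _)
          linarith
      nlinarith
    have h9 : F < |x - c| * (|δ| - M) := by
      have h10 : c / 2 * (2 * F / c) = F := by field_simp
      have h12 : 0 < |δ| - M := by linarith
      calc F = c / 2 * (2 * F / c) := h10.symm
        _ < c / 2 * (|δ| - M) := mul_lt_mul_of_pos_left h2 (by positivity)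
        _ ≤ |x - c| * (|δ| - M) := mul_le_mul_of_nonneg_right h3 h12.le
    linarith
  have h13 : Real.log x = Real.log c + δ := by rw [hδ]; ring
  rw [h13]
  exact (abs_add_le _ _).trans (add_le_add le_rfl key)

/-- vectors orthogonal to `stoich G` stay bounded on a class -/
theorem perp_bound (G : Net d) (c : Fin d → ℝ) (hc : ∀ i, 0 < c i) (E : ℝ) :
    ∃ Rb : ℝ, ∀ x ∈ Cls G c, ∀ v : Fin d → ℝ, (∀ r ∈ G.R, ∑ i, v i * rv r i = 0) →
      (∀ i, |v i - Real.log (x i)| ≤ E) → ∀ i, |Real.log (x i)| ≤ Rb := by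
  set Fi : Fin d → ℝ := fun i =>
    (|Real.log (c i)| + E) * (c i * (Real.exp (|Real.log (c i)| + E) + 1)) with hFi
  set F : ℝ := ∑ i, |Fi i| with hF
  have hF0 : 0 ≤ F := Finset.sum_nonneg fun _ _ => abs_nonneg _
  refine ⟨∑ i, |(|Real.log (c i)| + (1 + (|Real.log (c i)| + E) + 2 * F / c i))|, ?_⟩
  rintro x ⟨hx, hxc⟩ v hv hvE i
  have hperp : ∀ z ∈ stoich G, ∑ j, v j * z j = 0 := by
    intro z hz
    refine Submodule.span_induction (p := fun z _ => ∑ j, v j * z j = 0) ?_ ?_ ?_ ?_ hz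
    · rintro z ⟨r, hr, rfl⟩
      exact hv r hr
    · simp
    · intro y z _ _ hy hz
      simp only [Pi.add_apply, mul_add, Finset.sum_add_distrib, hy, hz, add_zero]
    · intro a z _ hz
      simp only [Pi.smul_apply, smul_eq_mul]
      have : ∑ j, v j * (a * z j) = a * ∑ j, v j * z j := by
        rw [Finset.mul_sum]
        exact Finset.sum_congr rfl fun j _ => by ring
      rw [this, hz, mul_zero]
  have h0 : ∑ j, (x j - c j) * v j = 0 := by
    have := hperp _ hxc
    simp only [Pi.sub_apply] at this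
    rw [← this]
    exact Finset.sum_congr rfl fun j _ => by ring
  have hlow : ∀ j, -|Fi j| ≤ (x j - c j) * v j := fun j =>
    (neg_le_neg (le_abs_self (Fi j))).trans (coord_lower (hx j) (hc j) (hvE j))
  have hup : (x i - c i) * v i ≤ F := by
    have h1 : (x i - c i) * v i + ∑ j ∈ Finset.univ.erase i, (x j - c j) * v j = 0 := by
      rw [Finset.add_sum_erase Finset.univ (fun j => (x j - c j) * v j) (Finset.mem_univ i)]
      exact h0
    have h2 : -∑ j ∈ Finset.univ.erase i, |Fi j| ≤ ∑ j ∈ Finset.univ.erase i, (x j - c j) * v j := by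
      rw [← Finset.sum_neg_distrib]
      exact Finset.sum_le_sum fun j _ => hlow j
    have h3 : ∑ j ∈ Finset.univ.erase i, |Fi j| ≤ F :=
      Finset.sum_le_sum_of_subset_of_nonneg (Finset.erase_subset _ _) fun _ _ _ => abs_nonneg _
    linarith
  refine (coord_upper (hx i) (hc i) (hvE i) hF0 hup).trans ((le_abs_self _).trans ?_)
  exact Finset.single_le_sum
    (f := fun i => |(|Real.log (c i)| + (1 + (|Real.log (c i)| + E) + 2 * F / c i))|)
    (fun _ _ => abs_nonneg _) (Finset.mem_univ i)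

end Vale.Agent.P072
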